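import Vale.Agent.P233.Gig.IfB

/-! P233, block B0c (helper134): the Hessian fields of regular curves are continuous in
`L²(M;E)`. -/

set_option linter.all false

open MeasureTheory Filter Topology Set
open scoped ENNReal NNReal InnerProductSpace

universe u v

namespace Vale.Agent.P233.H134

open Vale.Agent.P233

variable {M : Type*} [MeasurableSpace M] {m : Measure M} {C : Calc m}

/-- A curve of test functions which is continuous at `t` in the graph norm of the Laplacian, with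
bounded gradients. -/
structure Crv (C : Calc m) (J : Set ℝ) (P : ℝ → M →ₘ[m] ℝ) (t : ℝ) : Prop where
  ht : t ∈ J
  test : ∀ s ∈ J, P s ∈ C.Test
  ct : Tendsto (fun s => C.nrm2 (P s - P t)) (𝓝[J] t) (𝓝 0)
  lp : Tendsto (fun s => I ((C.lap (P s) - C.lap (P t)) ^ 2)) (𝓝[J] t) (𝓝 0)
  bd : ∃ B : ℝ, ∀ s ∈ J, ∀ᵐ x ∂m, C.Γ (P s) (P s) x ≤ B

variable {J : Set ℝ} {P Q : ℝ → M →ₘ[m] ℝ} {t : ℝ}

section
variable (hC : IsGamma C) {κ : ℝ} (hB : C.BEi κ)
include hC hB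

theorem Crv.smul (c : ℝ) (h : Crv C J P t) : Crv C J (fun s => c • P s) t := by
  have hD := hC.toIsDir
  refine ⟨h.ht, fun s hs => hC.test_smul hB c (h.test s hs), ?_, ?_, ?_⟩
  · have h1 := h.ct.const_mul (c ^ 2)
    rw [mul_zero] at h1
    refine h1.congr' ?_
    filter_upwards [self_mem_nhdsWithin] with s hs
    rw [← smul_sub, nrm2_smul' hD c (hD.sub_mem (hC.tW (h.test s hs)) (hC.tW (h.test t h.ht)))]
  · have h1 := h.lp.const_mul (c ^ 2)
    rw [mul_zero] at h1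
    refine h1.congr' ?_
    filter_upwards [self_mem_nhdsWithin] with s hs
    rw [hC.lap_smul hB c (h.test s hs), hC.lap_smul hB c (h.test t h.ht), ← I_smul]
    congr 1
    algebra
  · obtain ⟨B, hB'⟩ := h.bd
    refine ⟨c ^ 2 * B, fun s hs => ?_⟩
    have hW := hC.tW (h.test s hs)
    rw [hC.smul_left _ _ hW _ (hC.smul_mem _ _ hW), hC.Γ_smul_right _ hW hW]
    filter_upwards [hB' s hs, smul_ae (c • C.Γ (P s) (P s)) c, smul_ae (C.Γ (P s) (P s)) c]
      with x a1 a2 a3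
    rw [a2, a3]
    nlinarith [sq_nonneg c]

theorem Crv.add (h : Crv C J P t) (k : Crv C J Q t) : Crv C J (fun s => P s + Q s) t := by
  have hD := hC.toIsDir
  refine ⟨h.ht, fun s hs => hC.test_add hB (h.test s hs) (k.test s hs), ?_, ?_, ?_⟩
  · have h1 := (h.ct.const_mul 2).add (k.ct.const_mul 2)
    rw [mul_zero, add_zero] at h1
    refine squeeze_zero' ?_ ?_ h1
    · filter_upwards [self_mem_nhdsWithin] with s hs
      exact hD.nrm2_nonneg (hD.sub_mem (hC.tW (hC.test_add hB (h.test s hs) (k.test s hs)))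
        (hC.tW (hC.test_add hB (h.test t h.ht) (k.test t h.ht))))
    · filter_upwards [self_mem_nhdsWithin] with s hs
      have e : P s + Q s - (P t + Q t) = (P s - P t) + (Q s - Q t) := by abel
      rw [e]
      exact hD.nrm2_add_le (hD.sub_mem (hC.tW (h.test s hs)) (hC.tW (h.test t h.ht)))
        (hD.sub_mem (hC.tW (k.test s hs)) (hC.tW (k.test t h.ht)))
  · have h1 := (h.lp.const_mul 2).add (k.lp.const_mul 2)
    rw [mul_zero, add_zero] at h1
    refine squeeze_zero' (Eventually.of_forall fun s => I_sq_nonneg _) ?_ h1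
    filter_upwards [self_mem_nhdsWithin] with s hs
    rw [hC.lap_add hB (h.test s hs) (k.test s hs), hC.lap_add hB (h.test t h.ht) (k.test t h.ht)]
    have e : C.lap (P s) + C.lap (Q s) - (C.lap (P t) + C.lap (Q t)) =
      (C.lap (P s) - C.lap (P t)) + (C.lap (Q s) - C.lap (Q t)) := by abel
    rw [e]
    exact I_sq_add_le (mem_sub (hC.test_isLap (h.test s hs)).2.1
      (hC.test_isLap (h.test t h.ht)).2.1) (mem_sub (hC.test_isLap (k.test s hs)).2.1
      (hC.test_isLap (k.test t h.ht)).2.1)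
  · obtain ⟨B, hB'⟩ := h.bd
    obtain ⟨B₂, hB₂⟩ := k.bd
    refine ⟨2 * B + 2 * B₂, fun s hs => ?_⟩
    have hW := hC.tW (h.test s hs)
    have kW := hC.tW (k.test s hs)
    have e : C.Γ (P s + Q s) (P s + Q s) =
        C.Γ (P s) (P s) + (2 : ℝ) • C.Γ (P s) (Q s) + C.Γ (Q s) (Q s) := by
      rw [hC.add_left _ hW _ kW _ (hC.add_mem _ hW _ kW), hC.Γ_add_right hW hW kW,
        hC.Γ_add_right kW hW kW, hC.symm _ kW _ hW]
      algebra
    rw [e]
    filter_upwards [hB' s hs, hB₂ s hs,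
      add_ae (C.Γ (P s) (P s) + (2 : ℝ) • C.Γ (P s) (Q s)) (C.Γ (Q s) (Q s)),
      add_ae (C.Γ (P s) (P s)) ((2 : ℝ) • C.Γ (P s) (Q s)), smul_ae (C.Γ (P s) (Q s)) (2 : ℝ),
      hD.Γ_cs_ae hW kW, hD.Γ_nonneg_ae hW, hD.Γ_nonneg_ae kW] with x b1 b2 b3 b4 b5 b6 b7 b8
    rw [b3, b4, b5]
    have b9 : C.Γ (P s) (Q s) x ≤ (C.Γ (P s) (P s) x + C.Γ (Q s) (Q s) x) / 2 := by
      by_contra nlg
      rw [not_le] at nlg
      nlinarith [sq_nonneg (C.Γ (P s) (P s) x - C.Γ (Q s) (Q s) x)]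
    linarith

/-- Every sequence of times tending to `t` has a subsequence along which the curve converges in
the sense `Cv` of the library. -/
theorem Crv.exists_Cv (h : Crv C J P t) {ns : ℕ → ℝ} (hns : Tendsto ns atTop (𝓝[J] t)) :
    ∃ ms : ℕ → ℕ, StrictMono ms ∧ (∀ n, ns (ms n) ∈ J) ∧ C.Cv (fun n => P (ns (ms n))) (P t) := by
  have hD := hC.toIsDir
  have hev : ∀ᶠ n in atTop, ns n ∈ J := hns.eventually self_mem_nhdsWithin
  obtain ⟨N, hN⟩ := eventually_atTop.1 hev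
  have hJ : ∀ n, ns (n + N) ∈ J := fun n => hN _ (Nat.le_add_left _ _)
  have hns' : Tendsto (fun n => ns (n + N)) atTop (𝓝[J] t) :=
    hns.comp (tendsto_add_atTop_nat N)
  have hCw : C.Cw (fun n => P (ns (n + N))) (P t) := by
    refine ⟨fun n => h.test _ (hJ n), h.test t h.ht, h.ct.comp hns', h.lp.comp hns', ?_⟩
    obtain ⟨B, hB'⟩ := h.bd
    exact ⟨B, fun n => hB' _ (hJ n)⟩
  have h0 : C.Cw (fun _ : ℕ => (0 : M →ₘ[m] ℝ)) 0 := by
    have hz := hC.test_zero hB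
    refine ⟨fun _ => hz, hz, ?_, ?_, ⟨0, fun _ => ?_⟩⟩
    · simp only [sub_self]
      have : C.nrm2 (0 : M →ₘ[m] ℝ) = 0 := by
        have := nrm2_smul' hD 0 hD.zero_mem
        rw [zero_smul] at this
        rw [this]; ring
      rw [this]
      exact tendsto_const_nhds
    · have : ((C.lap 0 - C.lap 0) ^ 2 : M →ₘ[m] ℝ) = 0 := by rw [sub_self]; ring
      simp only [this, I_zero]
      exact tendsto_const_nhds
    · have := hC.smul_left 0 0 hD.zero_mem 0 hD.zero_mem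
      rw [zero_smul, zero_smul] at this
      rw [this]
      filter_upwards [zero_ae (M := M) (m := m)] with x hx
      rw [hx]
  obtain ⟨ks, hks, h1, -⟩ := hC.exists_common hB hCw h0 h0
    ⟨0, fun _ => by filter_upwards [zero_ae (M := M) (m := m)] with x hx; rw [hx, abs_zero]⟩
  refine ⟨fun n => ks n + N, fun a b hab => Nat.add_lt_add_right (hks hab) N, fun n => hJ _, h1⟩

end

section
variable {E : Type*} [NormedAddCommGroup E] [InnerProductSpace ℝ E]

/-- the `L²` norm of a field -/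
theorem eLp_eq {u : M → E} (hu : MemLp u 2 m) :
    eLpNorm u 2 m = ENNReal.ofReal (√(∫ x, ‖u x‖ ^ 2 ∂m)) := by
  rw [n2_eq hu, Real.sqrt_sq ENNReal.toReal_nonneg, ENNReal.ofReal_toReal hu.eLpNorm_lt_top.ne]

theorem te_eLp {w : ℕ → M → E} {w0 : M → E} (h : TE m w w0) :
    Tendsto (fun n => eLpNorm (fun x => w n x - w0 x) 2 m) atTop (𝓝 0) := by
  have h1 : ∀ n, eLpNorm (fun x => w n x - w0 x) 2 m =
      ENNReal.ofReal (√(∫ x, ‖w n x - w0 x‖ ^ 2 ∂m)) := fun n => eLp_eq ((h.mem n).sub h.mem')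
  simp only [h1]
  have h2 := (Real.continuous_sqrt.tendsto 0).comp h.lim
  rw [Real.sqrt_zero] at h2
  have h3 := (ENNReal.continuous_ofReal.tendsto 0).comp h2
  rw [ENNReal.ofReal_zero] at h3
  exact h3

variable {Gr : (M →ₘ[m] ℝ) → M → E} {U : (M →ₘ[m] ℝ) → (M →ₘ[m] ℝ) → M → E}
variable (hC : IsGamma C) {κ : ℝ} (hB : C.BEi κ) (hG : IsGrad C Gr) (hU : IsHU C Gr U)
include hC hB hG hU

theorem cst_Cv {a : M →ₘ[m] ℝ} (ha : a ∈ C.Test) : C.Cv (fun _ => a) a := by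
  have hD := hC.toIsDir
  have hz : C.Γ (a - a) (a - a) = 0 := by
    have := hC.smul_left 0 0 hD.zero_mem 0 hD.zero_mem
    rw [zero_smul, zero_smul] at this
    rw [sub_self]; exact this
  refine ⟨fun _ => ha, ha, ?_, ?_, ⟨0, fun _ => ?_⟩, ?_⟩
  · have : C.nrm2 (a - a) = 0 := by
      unfold Calc.nrm2
      rw [hz, sub_self]
      have : (0 : M →ₘ[m] ℝ) ^ 2 = 0 := by ring
      rw [this, I_zero, add_zero]
    rw [this]
    exact tendsto_const_nhds
  · have : ((C.lap a - C.lap a) ^ 2 : M →ₘ[m] ℝ) = 0 := by rw [sub_self]; ring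
    simp only [this, I_zero]
    exact tendsto_const_nhds
  · rw [hz]
    filter_upwards [zero_ae (M := M) (m := m)] with x hx
    rw [hx]
  · rw [hz]
    filter_upwards [zero_ae (M := M) (m := m)] with x hx
    rw [hx]
    exact tendsto_const_nhds

/-- `s ↦ ∇_{∇h} ∇P_s` -/
theorem Crv.tendsto_U1 [SigmaFinite m] (h : Crv C J P t) {a : M →ₘ[m] ℝ} (ha : a ∈ C.Test) :
    Tendsto (fun s => eLpNorm (fun x => U (P s) a x - U (P t) a x) 2 m) (𝓝[J] t) (𝓝 0) := by
  refine tendsto_of_subseq_tendsto fun ns hns => ?_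
  obtain ⟨ms, -, hmJ, hcv⟩ := h.exists_Cv hC hB hns
  exact ⟨ms, te_eLp (hC.Cv_U hB hG hU hcv (cst_Cv hC hB hG hU ha))⟩

/-- `s ↦ ∇_{∇P_s} ∇h` -/
theorem Crv.tendsto_U2 [SigmaFinite m] (h : Crv C J P t) {a : M →ₘ[m] ℝ} (ha : a ∈ C.Test) :
    Tendsto (fun s => eLpNorm (fun x => U a (P s) x - U a (P t) x) 2 m) (𝓝[J] t) (𝓝 0) := by
  refine tendsto_of_subseq_tendsto fun ns hns => ?_
  obtain ⟨ms, -, hmJ, hcv⟩ := h.exists_Cv hC hB hns
  exact ⟨ms, te_eLp (hC.Cv_U hB hG hU (cst_Cv hC hB hG hU ha) hcv)⟩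

/-- two curves -/
theorem Crv.tendsto_U3 [SigmaFinite m] (h : Crv C J P t) (k : Crv C J Q t) :
    Tendsto (fun s => eLpNorm (fun x => U (P s) (Q s) x - U (P t) (Q t) x) 2 m) (𝓝[J] t)
      (𝓝 0) := by
  refine tendsto_of_subseq_tendsto fun ns hns => ?_
  obtain ⟨ms, hms, hmJ, hcv⟩ := h.exists_Cv hC hB hns
  have hns' : Tendsto (fun n => ns (ms n)) atTop (𝓝[J] t) := hns.comp hms.tendsto_atTop
  obtain ⟨ks, hks, hkJ, hcv'⟩ := k.exists_Cv hC hB hns'
  have h2 : C.Cv (fun n => P (ns (ms (ks n)))) (P t) := by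
    refine ⟨fun n => hcv.test _, hcv.lim, hcv.W.comp hks.tendsto_atTop,
      hcv.lap.comp hks.tendsto_atTop, ?_, ?_⟩
    · obtain ⟨K, hK⟩ := hcv.bd
      exact ⟨K, fun n => hK _⟩
    · filter_upwards [hcv.ae] with x hx
      exact hx.comp hks.tendsto_atTop
  exact ⟨fun n => ms (ks n), te_eLp (hC.Cv_U hB hG hU h2 hcv')⟩

omit hU in
/-- the gradients -/
theorem Crv.tendsto_Gr (h : Crv C J P t) :
    Tendsto (fun s => eLpNorm (fun x => Gr (P s) x - Gr (P t) x) 2 m) (𝓝[J] t) (𝓝 0) := by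
  have hD := hC.toIsDir
  have h2 : Tendsto (fun s => ENNReal.ofReal (√(C.nrm2 (P s - P t)))) (𝓝[J] t) (𝓝 0) := by
    have h3 := (Real.continuous_sqrt.tendsto 0).comp h.ct
    rw [Real.sqrt_zero] at h3
    have h4 := (ENNReal.continuous_ofReal.tendsto 0).comp h3
    rw [ENNReal.ofReal_zero] at h4
    exact h4
  refine tendsto_of_tendsto_of_tendsto_of_le_of_le' tendsto_const_nhds h2
    (Eventually.of_forall fun _ => bot_le) ?_
  filter_upwards [self_mem_nhdsWithin] with s hs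
  have hW := hC.tW (h.test s hs)
  have kW := hC.tW (h.test t h.ht)
  have e : eLpNorm (fun x => Gr (P s) x - Gr (P t) x) 2 m = eLpNorm (Gr (P s - P t)) 2 m := by
    refine eLpNorm_congr_ae ?_
    filter_upwards [hG.sub hD hW kW] with x hx
    rw [hx]
  rw [e, eLp_eq (hG.mem _ (hD.sub_mem hW kW)), hG.int_norm_sq (hD.sub_mem hW kW)]
  exact ENNReal.ofReal_le_ofReal (Real.sqrt_le_sqrt (hD.E_le_nrm2 _))

end

/-! ### regular pairs -/

section
variable (hC : IsGamma C) {κ : ℝ} (hB : C.BEi κ)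
include hC hB

/-- differentiability in `W` gives continuity in `W` -/
theorem ct_of_derW {f' : M →ₘ[m] ℝ} (ht : t ∈ J) (hP : ∀ s ∈ J, P s ∈ C.W) (hf' : f' ∈ C.W)
    (h : C.DerW J P f' t) : Tendsto (fun s => C.nrm2 (P s - P t)) (𝓝[J] t) (𝓝 0) := by
  have hD := hC.toIsDir
  have hz : C.nrm2 (P t - P t) = 0 := by
    rw [sub_self]
    have := nrm2_smul' hD 0 hD.zero_mem
    rw [zero_smul] at this
    rw [this]; ring
  have hJ : J = insert t (J \ {t}) := by
    rw [Set.insert_diff_singleton, Set.insert_eq_of_mem ht]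
  rw [hJ, nhdsWithin_insert, tendsto_sup]
  refine ⟨?_, ?_⟩
  · rw [tendsto_pure_left]
    intro s hs
    rw [hz]
    exact mem_of_mem_nhds hs
  · have hst : Tendsto (fun s : ℝ => (s - t) ^ 2) (𝓝[J \ {t}] t) (𝓝 0) := by
      have : Tendsto (fun s : ℝ => (s - t) ^ 2) (𝓝 t) (𝓝 ((t - t) ^ 2)) :=
        ((continuous_id.sub continuous_const).pow 2).tendsto t
      rw [sub_self, zero_pow two_ne_zero] at this
      exact this.mono_left nhdsWithin_le_nhds
    have h1 := (hst.mul (h.const_mul 2)).add (hst.mul_const (2 * C.nrm2 f'))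
    simp only [mul_zero, zero_mul, add_zero] at h1
    refine squeeze_zero' ?_ ?_ h1
    · filter_upwards [self_mem_nhdsWithin] with s hs
      exact hD.nrm2_nonneg (hD.sub_mem (hP s hs.1) (hP t ht))
    · filter_upwards [self_mem_nhdsWithin] with s hs
      have hne : s - t ≠ 0 := sub_ne_zero.2 hs.2
      have e : P s - P t = (s - t) • (((s - t)⁻¹ • (P s - P t) - f') + f') := by
        rw [sub_add_cancel, smul_smul, mul_inv_cancel₀ hne, one_smul]
      have hq : (s - t)⁻¹ • (P s - P t) - f' ∈ C.W :=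
        hD.sub_mem (hC.smul_mem _ _ (hD.sub_mem (hP s hs.1) (hP t ht))) hf'
      calc C.nrm2 (P s - P t) = (s - t) ^ 2 * C.nrm2 (((s - t)⁻¹ • (P s - P t) - f') + f') := by
            conv_lhs => rw [e]
            rw [nrm2_smul' hD _ (hC.add_mem _ hq _ hf')]
        _ ≤ (s - t) ^ 2 * (2 * C.nrm2 ((s - t)⁻¹ • (P s - P t) - f') + 2 * C.nrm2 f') := by
            refine mul_le_mul_of_nonneg_left (hD.nrm2_add_le hq hf') (sq_nonneg _)
        _ = _ := by ring

/-- the potentials of a regular pair -/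
theorem crv_pot {a b : ℝ} (ht : t ∈ Icc a b) (hm : ∀ s ∈ Icc a b, P s ∈ C.TestI)
    {f' : M →ₘ[m] ℝ} (hf' : f' ∈ C.W) (hd : C.DerW (Icc a b) P f' t)
    (hl : C.CtW (Icc a b) (fun s => C.lap (P s)) t)
    (hb : ∃ B : ℝ, ∀ s ∈ Icc a b, ∀ᵐ x ∂m, C.Γ (P s) (P s) x ≤ B) : Crv C (Icc a b) P t := by
  have hD := hC.toIsDir
  refine ⟨ht, fun s hs => (hm s hs).1, ?_, ?_, hb⟩
  · exact ct_of_derW hC hB ht (fun s hs => hC.tW (hm s hs).1) hf' hd
  · refine squeeze_zero' (Eventually.of_forall fun s => I_sq_nonneg _) ?_ hl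
    filter_upwards [self_mem_nhdsWithin] with s hs
    exact hD.I_sq_le_nrm2 (hD.sub_mem (hC.test_lap_mem (hm s hs).1) (hC.test_lap_mem (hm t ht).1))

theorem crv_pair {ε a b : ℝ} {φ u : ℝ → M →ₘ[m] ℝ} (hR : C.Reg ε a b φ u) (ht : t ∈ Icc a b) :
    Crv C (Icc a b) φ t ∧ Crv C (Icc a b) u t ∧ Crv C (Icc a b) (th φ u) t ∧
      Crv C (Icc a b) (LL ε φ u) t := by
  obtain ⟨B, hB'⟩ := hR.bdd
  have hW : ∀ g ∈ C.TestI, ∀ c : ℝ, c • C.lap g - (2 : ℝ)⁻¹ • C.Γ g g ∈ C.W := fun g hg c =>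
    hC.toIsDir.sub_mem (hC.smul_mem _ _ (hC.test_lap_mem hg.1))
      (hC.smul_mem _ _ (hC.Γ_mem hB hg.1 hg.1).1)
  have h1 : Crv C (Icc a b) φ t := by
    refine crv_pot hC hB ht hR.φ_mem ?_ (hR.dφ t ht) (hR.cφ t ht)
      ⟨B, fun s hs => (hB' s hs).mono fun x hx => hx.2.2.1⟩
    have := hW _ (hR.φ_mem t ht) (-(ε / 2))
    rwa [neg_smul] at this
  have h2 : Crv C (Icc a b) u t :=
    crv_pot hC hB ht hR.u_mem (hW _ (hR.u_mem t ht) (ε / 2)) (hR.du t ht) (hR.cu t ht)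
      ⟨B, fun s hs => (hB' s hs).mono fun x hx => hx.2.2.2.1⟩
  refine ⟨h1, h2, (h1.add hC hB h2).smul hC hB _, ?_⟩
  have h3 := (h1.add hC hB (h2.smul hC hB (-1))).smul hC hB ε⁻¹
  have e : (LL ε φ u) = fun s => ε⁻¹ • (φ s + (-1 : ℝ) • u s) := by
    funext s
    unfold LL
    rw [neg_one_smul, sub_eq_add_neg]
  rw [e]
  exact h3

end

/-- **Block B0c.** -/
theorem blk_B0c : Blk_B0c.{u, v} := by
  intro M _ m _ C K E _ _ _ Gr U hC hB hG hU ε a b φ u hR h hh t ht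
  obtain ⟨-, -, h3, h4⟩ := crv_pair hC hB hR ht
  exact ⟨h3.tendsto_U1 hC hB hG hU hh.1, h3.tendsto_U2 hC hB hG hU hh.1,
    h4.tendsto_U1 hC hB hG hU hh.1, h3.tendsto_Gr hC hB hG⟩

end Vale.Agent.P233.H134
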