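import Vale.Agent.P233.H134.C4a

/-! P233, block C4, part c: the radial ordinary differential equation (helper134). -/

set_option linter.all false

open MeasureTheory Filter Topology Set
open scoped ENNReal NNReal

namespace Vale.Agent.P233.H134

open Vale.Agent.P233 Vale.Agent.P233.PC

/-- the radial velocity -/
noncomputable def sg (s₀ C₀ τ r : ℝ) : ℝ := if r < rr s₀ C₀ τ then r / (τ + s₀) else 0

/-- the radial equation -/
structure Rad (s₀ C₀ : ℝ) (r : ℝ → ℝ) : Prop where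
  hs : 0 < s₀
  hC : 0 < C₀
  cont : Continuous r
  nonneg : ∀ t, 0 ≤ r t
  ode : ∀ s ∈ Icc (0 : ℝ) 1, ∀ t ∈ Icc s 1, r t - r s = ∫ τ in s..t, sg s₀ C₀ τ (r τ)

variable {s₀ C₀ : ℝ} {r : ℝ → ℝ}

/-- in the moving ball, `r/(t+s₀)` is constant -/
theorem Rad.loc (h : Rad s₀ C₀ r) {a b : ℝ} (ha : 0 ≤ a) (hb : b ≤ 1) (hab : a ≤ b)
    (hlt : ∀ τ ∈ Icc a b, r τ < rr s₀ C₀ τ) : r b / (b + s₀) = r a / (a + s₀) := by
  set g : ℝ → ℝ := fun τ => r τ / (max τ 0 + s₀) with hg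
  have hs := h.hs
  have hgc : Continuous g := by
    refine h.cont.div (by fun_prop) fun x => ?_
    have : (0 : ℝ) ≤ max x 0 := le_max_right _ _
    positivity
  have e1 : ∀ t ∈ Icc a b, r t = r a + ∫ τ in a..t, g τ := by
    intro t ht
    have h1 := h.ode a ⟨ha, hab.trans hb⟩ t ⟨ht.1, ht.2.trans hb⟩
    have h2 : ∫ τ in a..t, sg s₀ C₀ τ (r τ) = ∫ τ in a..t, g τ := by
      refine intervalIntegral.integral_congr fun τ hτ => ?_
      rw [uIcc_of_le ht.1] at hτ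
      show sg s₀ C₀ τ (r τ) = g τ
      rw [sg, if_pos (hlt τ ⟨hτ.1, hτ.2.trans ht.2⟩), hg]
      simp only
      rw [max_eq_left (ha.trans hτ.1)]
    rw [h2] at h1
    linarith
  have hd : ∀ x ∈ Ico a b, HasDerivWithinAt r (g x) (Ici x) x := by
    intro x hx
    have h1 : HasDerivAt (fun t => r a + ∫ τ in a..t, g τ) (g x) x :=
      ((hgc.integral_hasStrictDerivAt a x).hasDerivAt).const_add _
    refine h1.hasDerivWithinAt.congr_of_eventuallyEq ?_ (e1 x ⟨hx.1, hx.2.le⟩)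
    have h2 : Icc x b ∈ 𝓝[≥] x := Icc_mem_nhdsGE hx.2
    filter_upwards [h2] with y hy
    exact e1 y ⟨hx.1.trans hy.1, hy.2⟩
  have hw : ∀ x ∈ Ico a b, HasDerivWithinAt (fun t => r t / (t + s₀)) 0 (Ici x) x := by
    intro x hx
    have hxs : x + s₀ ≠ 0 := by have := ha.trans hx.1; positivity
    have h1 : HasDerivWithinAt (fun t : ℝ => t + s₀) 1 (Ici x) x :=
      ((hasDerivAt_id x).add_const s₀).hasDerivWithinAt
    have h2 := (hd x hx).div h1 hxs
    refine h2.congr_deriv ?_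
    rw [hg]
    simp only
    rw [max_eq_left (ha.trans hx.1)]
    field_simp
    ring
  have hcont : ContinuousOn (fun t => r t / (t + s₀)) (Icc a b) := by
    refine h.cont.continuousOn.div (by fun_prop) fun x hx => ?_
    have := ha.trans hx.1
    positivity
  exact constant_of_has_deriv_right_zero hcont hw b ⟨hab, le_rfl⟩

/-- outside the moving ball, `r` is constant -/
theorem Rad.loc' (h : Rad s₀ C₀ r) {a b : ℝ} (ha : 0 ≤ a) (hb : b ≤ 1) (hab : a ≤ b)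
    (hlt : ∀ τ ∈ Icc a b, rr s₀ C₀ τ ≤ r τ) : r b = r a := by
  have h1 := h.ode a ⟨ha, hab.trans hb⟩ b ⟨hab, hb⟩
  have h2 : ∫ τ in a..b, sg s₀ C₀ τ (r τ) = ∫ τ in a..b, (0 : ℝ) := by
    refine intervalIntegral.integral_congr fun τ hτ => ?_
    rw [uIcc_of_le hab] at hτ
    show sg s₀ C₀ τ (r τ) = 0
    rw [sg, if_neg (not_lt.2 (hlt τ hτ))]
  rw [h2] at h1
  simp at h1
  linarith

/-- backward continuous induction -/
theorem back_induction {τ₀ : ℝ} {S : Set ℝ} (hS : IsClosed S) (h0 : τ₀ ∈ S)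
    (hst : ∀ τ ∈ S, 0 < τ → τ ≤ τ₀ → ∃ δ > 0, ∀ a, 0 ≤ a → a ≤ τ → τ - δ < a → a ∈ S) :
    ∀ τ, 0 ≤ τ → τ ≤ τ₀ → τ ∈ S := by
  set T : Set ℝ := {u | τ₀ - u ∈ S} with hT
  have hTc : IsClosed (T ∩ Icc 0 τ₀) :=
    (hS.preimage (by fun_prop : Continuous fun u : ℝ => τ₀ - u)).inter isClosed_Icc
  have key := hTc.Icc_subset_of_forall_exists_gt (by simpa [hT] using h0)
    (fun u hu y hy => by
      have hu1 : τ₀ - u ∈ S := hu.1
      obtain ⟨δ, hδ, hd⟩ := hst _ hu1 (by linarith [hu.2.2]) (by linarith [hu.2.1])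
      have hy' : u < y := hy
      refine ⟨min (min y τ₀) (u + δ / 2), ?_, ?_, ?_⟩
      · show τ₀ - min (min y τ₀) (u + δ / 2) ∈ S
        have h1 : min (min y τ₀) (u + δ / 2) ≤ τ₀ := (min_le_left _ _).trans (min_le_right _ _)
        have h2 : u ≤ min (min y τ₀) (u + δ / 2) :=
          le_min (le_min hy'.le hu.2.2.le) (by linarith)
        have h3 : min (min y τ₀) (u + δ / 2) ≤ u + δ / 2 := min_le_right _ _
        exact hd _ (by linarith) (by linarith) (by linarith)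
      · exact lt_min (lt_min hy' hu.2.2) (by linarith)
      · exact (min_le_left _ _).trans (min_le_left _ _))
  intro τ h1 h2
  have := key (show τ₀ - τ ∈ Icc 0 τ₀ from ⟨by linarith, by linarith⟩)
  simpa [hT] using this

/-- propagation inside -/
theorem Rad.inside (h : Rad s₀ C₀ r) {τ₀ : ℝ} (h0 : 0 ≤ τ₀) (h1 : τ₀ ≤ 1)
    (hlt : r τ₀ < rr s₀ C₀ τ₀) {τ : ℝ} (hτ0 : 0 ≤ τ) (hτ : τ ≤ τ₀) :
    r τ = (τ + s₀) * (r τ₀ / (τ₀ + s₀)) ∧ r τ < rr s₀ C₀ τ := by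
  have hs := h.hs
  have hC := h.hC
  set c : ℝ := r τ₀ / (τ₀ + s₀) with hc
  have hτs : 0 < τ₀ + s₀ := by positivity
  have hc0 : 0 ≤ c := div_nonneg (h.nonneg _) hτs.le
  have hcl : ∀ τ, 0 ≤ τ → τ ≤ τ₀ → (τ + s₀) * c < rr s₀ C₀ τ := by
    intro τ a1 a2
    have h2 : r τ₀ ^ 2 < 2 * C₀ * (τ₀ + s₀) := by
      rw [← rr_sq hs hC h0]
      exact pow_lt_pow_left₀ hlt (h.nonneg _) two_ne_zero
    have h3 : c ^ 2 * (τ₀ + s₀) < 2 * C₀ := by
      have : c ^ 2 * (τ₀ + s₀) = r τ₀ ^ 2 / (τ₀ + s₀) := by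
        rw [hc]; field_simp
      rw [this, div_lt_iff₀ hτs]
      exact h2
    refine Real.lt_sqrt_of_sq_lt ?_
    have h4 : c ^ 2 * (τ + s₀) < 2 * C₀ :=
      lt_of_le_of_lt (mul_le_mul_of_nonneg_left (by linarith) (sq_nonneg _)) h3
    calc ((τ + s₀) * c) ^ 2 = c ^ 2 * (τ + s₀) * (τ + s₀) := by ring
      _ < 2 * C₀ * (τ + s₀) := mul_lt_mul_of_pos_right h4 (by positivity)
  have key := back_induction (τ₀ := τ₀) (S := {τ | r τ = (τ + s₀) * c})
    (isClosed_eq h.cont (by fun_prop)) (by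
      show r τ₀ = (τ₀ + s₀) * c
      rw [hc]; field_simp) (fun τ hS b1 b2 => by
      have hS' : r τ = (τ + s₀) * c := hS
      have h5 : r τ < rr s₀ C₀ τ := by rw [hS']; exact hcl τ b1.le b2
      have h6 : ∀ᶠ a in 𝓝 τ, r a < rr s₀ C₀ a :=
        h.cont.continuousAt.eventually_lt continuous_rr.continuousAt h5
      obtain ⟨δ, hδ, hd⟩ := Metric.eventually_nhds_iff.1 h6
      refine ⟨δ, hδ, fun a a1 a2 a3 => ?_⟩
      have h7 := h.loc a1 (b2.trans h1) a2 (fun x hx => hd (by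
        rw [Real.dist_eq, abs_of_nonpos (by linarith [hx.2])]
        linarith [hx.1]))
      show r a = (a + s₀) * c
      rw [hS'] at h7
      have h8 : 0 < a + s₀ := by positivity
      have h9 : 0 < τ + s₀ := by positivity
      field_simp at h7
      linarith)
  have h10 : r τ = (τ + s₀) * c := key τ hτ0 hτ
  exact ⟨h10, by rw [h10]; exact hcl τ hτ0 hτ⟩

/-- propagation outside -/
theorem Rad.outside (h : Rad s₀ C₀ r) {τ₀ : ℝ} (h0 : 0 ≤ τ₀) (h1 : τ₀ ≤ 1)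
    (hlt : rr s₀ C₀ τ₀ < r τ₀) {τ : ℝ} (hτ0 : 0 ≤ τ) (hτ : τ ≤ τ₀) : r τ = r τ₀ := by
  have hs := h.hs
  have hC := h.hC
  exact back_induction (τ₀ := τ₀) (S := {τ | r τ = r τ₀})
    (isClosed_eq h.cont continuous_const) (by simp) (fun τ hS b1 b2 => by
      have hS' : r τ = r τ₀ := hS
      have h5 : rr s₀ C₀ τ < r τ := by
        rw [hS']; exact (rr_mono hC b2).trans_lt hlt
      have h6 : ∀ᶠ a in 𝓝 τ, rr s₀ C₀ a < r a :=
        continuous_rr.continuousAt.eventually_lt h.cont.continuousAt h5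
      obtain ⟨δ, hδ, hd⟩ := Metric.eventually_nhds_iff.1 h6
      refine ⟨δ, hδ, fun a a1 a2 a3 => ?_⟩
      have h7 := h.loc' a1 (b2.trans h1) a2 (fun x hx => (hd (by
        rw [Real.dist_eq, abs_of_nonpos (by linarith [hx.2])]
        linarith [hx.1])).le)
      show r a = r τ₀
      rw [← h7, hS']) τ hτ0 hτ

theorem Rad.mono (h : Rad s₀ C₀ r) {s t : ℝ} (hs : 0 ≤ s) (hst : s ≤ t) (ht : t ≤ 1) :
    r s ≤ r t := by
  have h1 := h.ode s ⟨hs, hst.trans ht⟩ t ⟨hst, ht⟩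
  have h2 : 0 ≤ ∫ τ in s..t, sg s₀ C₀ τ (r τ) := by
    refine intervalIntegral.integral_nonneg hst fun τ hτ => ?_
    unfold sg
    split_ifs
    · have := h.hs
      have := h.nonneg τ
      have := hs.trans hτ.1
      positivity
    · exact le_rfl
  linarith

/-- on the sphere -/
theorem Rad.sphere (h : Rad s₀ C₀ r) (h1 : r 1 = rr s₀ C₀ 1)
    (hne : ∀ n : ℕ, r (1 - 1 / ((n : ℝ) + 2)) ≠ rr s₀ C₀ (1 - 1 / ((n : ℝ) + 2)))
    (h0 : r (1 / 2) ≠ (1 / 2 + s₀) * (rr s₀ C₀ 1 / (1 + s₀))) {τ : ℝ} (hτ0 : 0 ≤ τ)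
    (hτ : τ ≤ 1) : r τ = r 1 := by
  have hs := h.hs
  set σ : ℕ → ℝ := fun n => 1 - 1 / ((n : ℝ) + 2) with hσ
  have hσl : ∀ n, 1 / 2 ≤ σ n := by
    intro n
    have : 1 / ((n : ℝ) + 2) ≤ 1 / 2 :=
      one_div_le_one_div_of_le (by norm_num) (by linarith [n.cast_nonneg (α := ℝ)])
    simp only [hσ]; linarith
  have hσ1 : ∀ n, σ n ≤ 1 := by
    intro n
    have : 0 < 1 / ((n : ℝ) + 2) := by positivity
    simp only [hσ]; linarith
  have hlim : Tendsto σ atTop (𝓝 1) := by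
    have h2 : Tendsto (fun n : ℕ => 1 / ((n : ℝ) + 2)) atTop (𝓝 0) := by
      have := (tendsto_one_div_add_atTop_nhds_zero_nat (𝕜 := ℝ)).comp (tendsto_add_atTop_nat 1)
      refine this.congr fun n => ?_
      simp only [Function.comp_apply]
      push_cast
      ring_nf
    have := (tendsto_const_nhds (x := (1 : ℝ))).sub h2
    simpa [hσ] using this
  have hr : Tendsto (fun n => r (σ n)) atTop (𝓝 (rr s₀ C₀ 1)) := by
    rw [← h1]; exact (h.cont.tendsto 1).comp hlim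
  have hr2 : Tendsto (fun n => (1 / 2 + s₀) * (r (σ n) / (σ n + s₀))) atTop
      (𝓝 ((1 / 2 + s₀) * (rr s₀ C₀ 1 / (1 + s₀)))) :=
    (hr.div (hlim.add_const _) (by positivity)).const_mul _
  have hev : ∀ᶠ n in atTop, (1 / 2 + s₀) * (r (σ n) / (σ n + s₀)) ≠ r (1 / 2) :=
    hr2.eventually_ne h0.symm
  have hev2 : ∀ᶠ n in atTop, r 0 = r (σ n) := by
    filter_upwards [hev] with n hn
    rcases lt_trichotomy (r (σ n)) (rr s₀ C₀ (σ n)) with h2 | h2 | h2
    · exact absurd (h.inside (by linarith [hσl n]) (hσ1 n) h2 (by norm_num) (hσl n)).1.symm hn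
    · exact absurd h2 (hne n)
    · exact h.outside (by linarith [hσl n]) (hσ1 n) h2 le_rfl (by linarith [hσl n])
  have h3 : r 0 = r 1 := by
    rw [h1]
    exact tendsto_nhds_unique (tendsto_const_nhds.congr' hev2) hr
  exact le_antisymm (h.mono hτ0 hτ le_rfl) (h3 ▸ h.mono le_rfl hτ0 hτ)

end Vale.Agent.P233.H134
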