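import Vale.Agent.P233.H134.C4b
import Vale.Agent.P233.H134.C4c

/-! P233, block C4: the maps `Y t` move along radial geodesics (helper134). -/

set_option linter.all false

open MeasureTheory Filter Topology Set
open scoped ENNReal NNReal InnerProductSpace

universe u

namespace Vale.Agent.P233.H134

open Vale.Agent.P233 Vale.Agent.P233.PC
open TopologicalSpace (denseSeq denseRange_denseSeq)

section

variable {M : Type u} [MetricSpace M] [CompleteSpace M] [SecondCountableTopology M]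
  [MeasurableSpace M] [BorelSpace M] {m : Measure M}
variable {ρ : ℝ → M →ₘ[m] ℝ} {R : ℝ → ℝ → (M →ₘ[m] ℝ) → (M →ₘ[m] ℝ)} {Y : ℝ → M → M} {t : ℝ}
variable {K N : ℝ} {p : M} {s₀ C₀ : ℝ} {φ : ℝ → M →ₘ[m] ℝ}

/-- the spheres in the open ball of radius `r1` are null sets -/
theorem sphere_null (h : Std m K N) (hL : Lim m K N p s₀ C₀ φ ρ R) {c : ℝ} (hc : c < r1 s₀ C₀) :
    ∀ᵐ x ∂m, dist p x ≠ c := by
  have hC := std_dir h
  have hd := dc_mem (p := p) (s₀ := s₀) (C₀ := C₀) h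
  filter_upwards [hL.unit, H183.Γ_loc0 hC hd hd (c - r1 s₀ C₀),
    H183.dtr_ae (m := m) p (r1 s₀ C₀)] with x a1 a2 a3 hx
  have h1 : dist p x < r1 s₀ C₀ := by rw [hx]; exact hc
  have h2 := a1 h1
  have h3 : dc m p s₀ C₀ x = c - r1 s₀ C₀ := by
    show (cl m (dtr p (r1 s₀ C₀))) x = _
    rw [a3, H183.dtr_eq h1.le, hx]
  rw [a2 h3] at h2
  norm_num at h2

theorem measurable_velY (hY : Measurable fun z : ℝ × M => Y z.1 z.2) (x : M) :
    Measurable fun τ => vel p s₀ C₀ τ (Y τ x) := by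
  have h1 : Measurable fun τ => (τ, Y τ x) := measurable_id.prodMk (hY.comp measurable_prodMk_right)
  exact (measurable_vel p s₀ C₀).comp h1

theorem velY_int (hs₀ : 0 < s₀) (hC0 : 0 < C₀) (hY : Measurable fun z : ℝ × M => Y z.1 z.2)
    (x : M) {s t : ℝ} (hs : 0 ≤ s) (ht : t ≤ 1) :
    IntegrableOn (fun τ => vel p s₀ C₀ τ (Y τ x)) (Ioc s t) := by
  refine Integrable.of_bound (measurable_velY hY x).aestronglyMeasurable (r1 s₀ C₀ / s₀) ?_
  filter_upwards [ae_restrict_mem measurableSet_Ioc] with τ hτ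
  exact vel_bd hs₀ hC0 (hs.trans hτ.1.le) (hτ.2.trans ht) _

/-- the radial equation and the bound for the speed -/
theorem rad_eq (h : Std m K N) (hs₀ : 0 < s₀) (hC0 : 0 < C₀) (hL : Lim m K N p s₀ C₀ φ ρ R)
    (hM : Maps ρ R Y) (hY : Measurable fun z : ℝ × M => Y z.1 z.2) {V : ℝ}
    (hV : ∀ x s t, dist (Y s x) (Y t x) ≤ V * |s - t|) :
    ∀ᵐ x ∂m, Rad s₀ C₀ (fun τ => dist p (Y τ x)) ∧ ∀ s ∈ Icc (0 : ℝ) 1, ∀ t ∈ Icc s 1,
      dist (Y s x) (Y t x) ≤ dist p (Y t x) - dist p (Y s x) := by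
  haveI : Nonempty M := ⟨p⟩
  have hC := std_dir h
  -- the radial equation for truncated distances
  have h1 : ∀ᵐ x ∂m, ∀ n : ℕ, r1 s₀ C₀ ≤ n → ∀ s ∈ Icc (0 : ℝ) 1, ∀ t ∈ Icc s 1,
      dtr p n (Y t x) - dtr p n (Y s x) = ∫ τ in s..t, vel p s₀ C₀ τ (Y τ x) := by
    rw [ae_all_iff]; intro n
    by_cases hn : r1 s₀ C₀ ≤ n
    swap
    · exact Eventually.of_forall fun x hx => absurd hx hn
    have hq : ∀ᵐ y ∂m, dist p y < r1 s₀ C₀ →
        (sob m).Γ (cl m (dtr p n)) (dc m p s₀ C₀) y = 1 := by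
      filter_upwards [hL.unit, H183.Γ_dtr_radius hC h.hfin p (n : ℝ) (r1 s₀ C₀)
        (dc_mem (p := p) (s₀ := s₀) (C₀ := C₀) h)] with y a1 a2 a3
      rw [a2 (a3.trans_le hn) a3]
      exact a1 a3
    filter_upwards [derLip0 h hs₀ hC0 hL hM hY hV (H183.dtr_lip p (n : ℝ))
      (H183.dtr_mem h.hfin p (n : ℝ)), ae_flow h hM hY p hq] with x a1 a2 _ s hs t ht
    rw [(a1.2 s hs t ht).2, intervalIntegral.integral_of_le ht.1,
      intervalIntegral.integral_of_le ht.1]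
    refine integral_congr_ae ?_
    have h3 : ∀ᵐ τ ∂(volume.restrict (Ioc s t)), dist p (Y τ x) < r1 s₀ C₀ →
        (sob m).Γ (cl m (dtr p n)) (dc m p s₀ C₀) (Y τ x) = 1 :=
      ae_mono (Measure.restrict_mono (Ioc_subset_Ioc hs.1 ht.2) le_rfl) a2
    filter_upwards [h3, ae_restrict_mem measurableSet_Ioc] with τ a3 a4
    rw [gg]
    by_cases h5 : dist p (Y τ x) < rr s₀ C₀ τ
    · rw [a3 (h5.trans_le (rr_le_r1 hC0 (a4.2.trans ht.2))), mul_one]
    · rw [vel_off _ (not_lt.1 h5), zero_mul]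
  -- the speed
  have h2 : ∀ᵐ x ∂m, ∀ n k : ℕ, ∀ s ∈ Icc (0 : ℝ) 1, ∀ t ∈ Icc s 1,
      dtr (denseSeq M n) k (Y t x) - dtr (denseSeq M n) k (Y s x)
        ≤ ∫ τ in s..t, vel p s₀ C₀ τ (Y τ x) := by
    rw [ae_all_iff]; intro n
    rw [ae_all_iff]; intro k
    filter_upwards [derLip0 h hs₀ hC0 hL hM hY hV (H183.dtr_lip (denseSeq M n) (k : ℝ))
      (H183.dtr_mem h.hfin (denseSeq M n) (k : ℝ))] with x a1 s hs t ht
    obtain ⟨i1, e1⟩ := a1.2 s hs t ht
    rw [e1, intervalIntegral.integral_of_le ht.1, intervalIntegral.integral_of_le ht.1]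
    refine integral_mono_ae ((intervalIntegrable_iff_integrableOn_Ioc_of_le ht.1).1 i1)
      (velY_int hs₀ hC0 hY x hs.1 ht.2) ?_
    have h3 := ae_mono (Measure.restrict_mono (Ioc_subset_Ioc hs.1 ht.2) le_rfl) a1.1
    filter_upwards [h3, ae_restrict_mem measurableSet_Ioc] with τ a3 a4
    have h4 := vel_nonneg (p := p) (C₀ := C₀) hs₀ (hs.1.trans a4.1.le) (Y τ x)
    have h5 : (sob m).Γ (cl m (dtr (denseSeq M n) k)) (dc m p s₀ C₀) (Y τ x) ≤ 1 := by
      simpa using (le_abs_self _).trans a3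
    rw [gg]
    calc _ ≤ vel p s₀ C₀ τ (Y τ x) * 1 := mul_le_mul_of_nonneg_left h5 h4
      _ = _ := mul_one _
  filter_upwards [h1, h2] with x a1 a2
  have hYc : Continuous fun τ => Y τ x := by
    have h3 : ∀ s t, dist (Y s x) (Y t x) ≤ (Real.toNNReal V : ℝ) * dist s t := by
      intro s t
      rw [Real.dist_eq]
      exact (hV x s t).trans (mul_le_mul_of_nonneg_right (Real.le_coe_toNNReal V) (abs_nonneg _))
    exact (LipschitzWith.of_dist_le_mul h3).continuous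
  obtain ⟨n, hn⟩ := exists_nat_ge (max (r1 s₀ C₀) (dist p (Y 1 x) + |V|))
  have hd : ∀ τ ∈ Icc (0 : ℝ) 1, dist p (Y τ x) ≤ n := by
    intro τ hτ
    refine le_trans ?_ ((le_max_right _ _).trans hn)
    have h3 := dist_triangle p (Y 1 x) (Y τ x)
    have h4 : V * |1 - τ| ≤ |V| := by
      calc V * |1 - τ| ≤ |V| * 1 := mul_le_mul (le_abs_self V) (by
            rw [abs_of_nonneg (by linarith [hτ.2])]; linarith [hτ.1]) (abs_nonneg _) (abs_nonneg _)
        _ = |V| := mul_one _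
    linarith [hV x 1 τ]
  have hode : ∀ s ∈ Icc (0 : ℝ) 1, ∀ t ∈ Icc s 1, dist p (Y t x) - dist p (Y s x)
      = ∫ τ in s..t, vel p s₀ C₀ τ (Y τ x) := by
    intro s hs t ht
    rw [← a1 n ((le_max_left _ _).trans hn) s hs t ht, H183.dtr_eq (hd s ⟨hs.1, hs.2⟩),
      H183.dtr_eq (hd t ⟨hs.1.trans ht.1, ht.2⟩)]
    ring
  refine ⟨⟨hs₀, hC0, continuous_const.dist hYc, fun _ => dist_nonneg, fun s hs t ht => ?_⟩, ?_⟩
  · exact hode s hs t ht
  · intro s hs t ht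
    rw [hode s hs t ht, dist_comm]
    exact dist_le_of_dtr fun n k => a2 n k s hs t ht

/-- inside and outside -/
theorem rad_out (h : Std m K N) (hs₀ : 0 < s₀) (hC0 : 0 < C₀) (hL : Lim m K N p s₀ C₀ φ ρ R)
    (hM : Maps ρ R Y) (hY : Measurable fun z : ℝ × M => Y z.1 z.2) {V : ℝ}
    (hV : ∀ x s t, dist (Y s x) (Y t x) ≤ V * |s - t|) :
    ∀ᵐ x ∂m, (dist p x < r1 s₀ C₀ → (∀ t ∈ Icc (0 : ℝ) 1,
        dist p (Y t x) = (t + s₀) * spd1 p s₀ x ∧ dist p (Y t x) < rr s₀ C₀ t) ∧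
        ∀ s ∈ Icc (0 : ℝ) 1, ∀ t ∈ Icc (0 : ℝ) 1,
          dist (Y s x) (Y t x) = |s - t| * spd1 p s₀ x) ∧
      (r1 s₀ C₀ ≤ dist p x → ∀ t ∈ Icc (0 : ℝ) 1, Y t x = x) := by
  have hr1 : 0 < r1 s₀ C₀ := rr_pos (τ := 1) hs₀ hC0 zero_le_one
  have hσ : ∀ n : ℕ, (1 - 1 / ((n : ℝ) + 2)) ∈ Ioo (0 : ℝ) 1 := by
    intro n
    have h1 : 1 / ((n : ℝ) + 2) ≤ 1 / 2 :=
      one_div_le_one_div_of_le (by norm_num) (by linarith [n.cast_nonneg (α := ℝ)])
    have h2 : 0 < 1 / ((n : ℝ) + 2) := by positivity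
    constructor <;> linarith
  have h1 : ∀ᵐ x ∂m, ∀ n : ℕ, dist p (Y (1 - 1 / ((n : ℝ) + 2)) x)
      ≠ rr s₀ C₀ (1 - 1 / ((n : ℝ) + 2)) := by
    rw [ae_all_iff]; intro n
    exact Maps.ae hM ⟨(hσ n).1, (hσ n).2.le⟩
      (sphere_null h hL (rr_lt hs₀ hC0 (hσ n).1.le (hσ n).2))
  have h2 : ∀ᵐ x ∂m, dist p (Y (1 / 2) x) ≠ (1 / 2 + s₀) * (rr s₀ C₀ 1 / (1 + s₀)) := by
    refine Maps.ae hM ⟨by norm_num, by norm_num⟩ (sphere_null h hL ?_)
    rw [rr_one, ← mul_div_assoc, div_lt_iff₀ (by positivity)]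
    nlinarith
  filter_upwards [rad_eq h hs₀ hC0 hL hM hY hV, h1, h2] with x a1 a2 a3
  obtain ⟨hr, hsp⟩ := a1
  have h0 : dist p (Y 1 x) = dist p x := by rw [hM.one]
  constructor
  · intro hx
    have hin : ∀ t ∈ Icc (0 : ℝ) 1,
        dist p (Y t x) = (t + s₀) * spd1 p s₀ x ∧ dist p (Y t x) < rr s₀ C₀ t := by
      intro t ht
      have := hr.inside zero_le_one le_rfl (by
        show dist p (Y 1 x) < rr s₀ C₀ 1
        rw [h0]; exact hx) ht.1 ht.2
      simp only [h0] at this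
      exact this
    refine ⟨hin, ?_⟩
    have key : ∀ s ∈ Icc (0 : ℝ) 1, ∀ t ∈ Icc s 1,
        dist (Y s x) (Y t x) = |s - t| * spd1 p s₀ x := by
      intro s hs t ht
      have ht' : t ∈ Icc (0 : ℝ) 1 := ⟨hs.1.trans ht.1, ht.2⟩
      have e1 := hsp s hs t ht
      have e2 : dist p (Y t x) - dist p (Y s x) ≤ dist (Y s x) (Y t x) := by
        have := dist_triangle p (Y s x) (Y t x)
        linarith
      have e3 : dist p (Y t x) - dist p (Y s x) = |s - t| * spd1 p s₀ x := by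
        rw [(hin s hs).1, (hin t ht').1, abs_of_nonpos (by linarith [ht.1])]
        ring
      rw [← e3]
      exact le_antisymm e1 e2
    intro s hs t ht
    rcases le_total s t with hst | hst
    · exact key s hs t ⟨hst, ht.2⟩
    · rw [dist_comm, abs_sub_comm]
      exact key t ht s ⟨hst, hs.2⟩
  · intro hx t ht
    have hconst : ∀ τ ∈ Icc (0 : ℝ) 1, dist p (Y τ x) = dist p (Y 1 x) := by
      intro τ hτ
      rcases hx.eq_or_lt with hx | hx
      · exact hr.sphere (by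
          show dist p (Y 1 x) = rr s₀ C₀ 1
          rw [h0, rr_one, hx]) a2 a3 hτ.1 hτ.2
      · exact hr.outside zero_le_one le_rfl (by
          show rr s₀ C₀ 1 < dist p (Y 1 x)
          rw [h0]; exact hx) hτ.1 hτ.2
    have e1 := hsp t ht 1 ⟨ht.2, le_rfl⟩
    rw [hconst t ht, sub_self] at e1
    have e2 := dist_le_zero.1 e1
    rw [e2, hM.one]

end

/-- BLOCK C4 -/
theorem blk_C4 : Blk_C4.{u} := by
  intro M _ _ _ _ _ m K N P p s₀ C₀ hyp φ ρ R Y₀ hL hM₀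
  classical
  have h := hyp.std
  have hs₀ := hyp.hs
  have hC0 := hyp.hC0
  obtain ⟨Y₁, hY, hM, V, hV⟩ := exists_Y1 h hs₀ hC0 hL hM₀
  have hout := rad_out h hs₀ hC0 hL hM hY hV
  set Y : ℝ → M → M := fun t x => if dist p x < r1 s₀ C₀ then Y₁ t x else x with hYdef
  have hYin : ∀ x, dist p x < r1 s₀ C₀ → ∀ t, Y t x = Y₁ t x := fun x hx t => by
    simp only [hYdef, if_pos hx]
  have hYoff : ∀ x, r1 s₀ C₀ ≤ dist p x → ∀ t, Y t x = x := fun x hx t => by
    simp only [hYdef, if_neg (not_lt.2 hx)]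
  have hYm : Measurable fun z : ℝ × M => Y z.1 z.2 := by
    refine Measurable.ite ?_ hY measurable_snd
    exact measurableSet_lt ((continuous_const.dist continuous_id).measurable.comp measurable_snd)
      measurable_const
  have hYM : Maps ρ R Y := by
    refine Maps.congr hM (fun t _ => hYm.comp (measurable_const.prodMk measurable_id)) ?_ ?_
    · intro x
      by_cases hx : dist p x < r1 s₀ C₀
      · rw [hYin x hx, hM.one]
      · exact hYoff x (not_lt.1 hx) 1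
    · intro t ht
      filter_upwards [hout] with x a1
      by_cases hx : dist p x < r1 s₀ C₀
      · rw [hYin x hx]
      · rw [hYoff x (not_lt.1 hx), a1.2 (not_lt.1 hx) t ⟨ht.1.le, ht.2⟩]
  have hgg : ∀ᵐ x ∂m, dist p x < r1 s₀ C₀ → ∀ b : M →ₘ[m] ℝ, ∀ s ∈ Icc (0 : ℝ) 1, ∀ t ∈ Icc s 1,
      ∫ τ in s..t, gg m p s₀ C₀ b Y₁ τ x
        = spd1 p s₀ x * ∫ τ in s..t, (sob m).Γ b (dc m p s₀ C₀) (Y₁ τ x) := by
    filter_upwards [hout] with x a1 hx b s hs t ht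
    rw [← intervalIntegral.integral_const_mul]
    refine intervalIntegral.integral_congr fun τ hτ => ?_
    rw [uIcc_of_le ht.1] at hτ
    have hτ' : τ ∈ Icc (0 : ℝ) 1 := ⟨hs.1.trans hτ.1, hτ.2.trans ht.2⟩
    obtain ⟨b1, b2⟩ := (a1.1 hx).1 τ hτ'
    show gg m p s₀ C₀ b Y₁ τ x = _
    rw [gg, vel, if_pos b2, b1]
    have : 0 < τ + s₀ := by linarith [hτ'.1]
    field_simp
  refine ⟨Y, hYM, hYm, hYM.one, hYoff, ?_, ?_, ?_, ?_, ?_⟩
  · filter_upwards [hout] with x a1 hx s hs t ht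
    rw [hYin x hx, hYin x hx]
    exact (a1.1 hx).2 s hs t ht
  · filter_upwards [hout] with x a1 hx t ht
    rw [hYin x hx]
    exact ((a1.1 hx).1 t ht).1
  · intro t ht A hA
    rw [hYM.map t ht A hA, ← setLIntegral_const]
    refine setLIntegral_mono_ae measurable_const.aemeasurable ?_
    filter_upwards [hL.ρ_le t ht] with x a1 _
    exact ENNReal.ofReal_le_ofReal a1
  · intro b hb s hs t ht
    filter_upwards [hgg, der0 h hs₀ hC0 hL hM hY hb hs ht,
      flow_intOn h hL hM hY (Γ_b_dc_mem (p := p) (s₀ := s₀) (C₀ := C₀) h hb) hs.1]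
      with x a1 a2 a3 hx
    simp only [hYin x hx]
    refine ⟨(intervalIntegrable_iff_integrableOn_Ioc_of_le ht.1).2
      (a3.mono_set (Ioc_subset_Ioc_right ht.2)), ?_⟩
    rw [a2]
    exact a1 hx b s ⟨hs.1.le, hs.2⟩ t ht
  · rintro b ⟨L, hbL⟩ hb
    filter_upwards [hgg, derLip0 h hs₀ hC0 hL hM hY hV hbL hb] with x a1 a2 hx s hs t ht
    simp only [hYin x hx]
    constructor
    · rw [intervalIntegrable_iff_integrableOn_Ioc_of_le ht.1]
      have hm : Measurable fun τ => (sob m).Γ (cl m b) (dc m p s₀ C₀) (Y₁ τ x) :=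
        ((sob m).Γ (cl m b) (dc m p s₀ C₀)).measurable.comp (hY.comp measurable_prodMk_right)
      refine Integrable.of_bound hm.aestronglyMeasurable L ?_
      have h3 := ae_mono (Measure.restrict_mono (Ioc_subset_Ioc hs.1 ht.2) le_rfl) a2.1
      filter_upwards [h3] with τ a4
      exact a4
    · rw [(a2.2 s hs t ht).2]
      exact a1 hx (cl m b) s hs t ht

end Vale.Agent.P233.H134
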