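import Vale.Agent.P233.MathlibUsed2
import Mathlib.MeasureTheory.Order.Group.Lattice

/-!
P233, blueprint row `D7core` (helper134): pure metric-measure facts at one point `y`.

* `tendsto_slope_of_lip` (D4, elementary half): if for every real `lam` the function `h + lam g`
  has slope at most `sqrt (a + 2 lam b + lam ^ 2)` at `y`, and `g` decreases with unit speed along
  the curve `σ` issuing from `y`, then `h` has derivative `-b` along `σ`.
* `card_le_of_pack` : packing bound from `c s^n ≤ μ (closedBall z s)`, `μ (closedBall y s) ≤ C s^n`.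
* `rank_le_of_pack` (D7, finite rank at a point).
* `small_directions` (D6, abstract half): contraction + slab bound + D4 give the small ball
  estimate for the directions `w p`.
-/

namespace Vale.Agent.P233.H134

open Filter Topology MeasureTheory Set Metric
open scoped ENNReal

/-! ## D4, elementary half -/

/-- The scalar inequality behind D4: `sqrt (a + 2 λ b + λ ^ 2) ≤ λ + b + η` for all large `λ`. -/
theorem eventually_sqrt_le (a b : ℝ) {η : ℝ} (hη : 0 < η) :
    ∀ᶠ lam : ℝ in atTop, √(a + 2 * lam * b + lam ^ 2) ≤ lam + b + η := by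
  filter_upwards [eventually_ge_atTop (-b), eventually_ge_atTop ((a - b ^ 2 - 2 * b * η) / (2 * η))]
    with lam h1 h2
  have h3 : a - b ^ 2 - 2 * b * η ≤ lam * (2 * η) := by
    rwa [div_le_iff₀ (by positivity)] at h2
  apply Real.sqrt_le_iff.2
  refine ⟨by linarith, ?_⟩
  nlinarith [sq_nonneg η]

/-- **D4, elementary half, uniform form.** If `h + lam g` has slope at most
`sqrt (a + 2 lam b + lam ^ 2)` at `y` for every real `lam`, then at all points `z` near `y` with
`g z = g y - s`, `dist z y ≤ s` the increment of `h` is `- b s + o(s)`. -/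
theorem slope_uniform {M : Type*} [PseudoMetricSpace M] {h g : M → ℝ} {y : M} {a b : ℝ}
    (hlip : ∀ lam : ℝ, ∀ η : ℝ, 0 < η → ∀ᶠ s in 𝓝[>] (0 : ℝ), ∀ z ∈ closedBall y s,
      |(h z + lam * g z) - (h y + lam * g y)| ≤ (√(a + 2 * lam * b + lam ^ 2) + η) * s)
    {ε : ℝ} (hε : 0 < ε) :
    ∀ᶠ s in 𝓝[>] (0 : ℝ), ∀ z ∈ closedBall y s, g z = g y - s → |h z - h y + b * s| ≤ ε * s := by
  obtain ⟨lam, hlam⟩ := (eventually_sqrt_le a b (η := ε / 2) (by positivity)).exists
  obtain ⟨lam', hlam'⟩ := (eventually_sqrt_le a (-b) (η := ε / 2) (by positivity)).exists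
  have hpos : ∀ᶠ s in 𝓝[>] (0 : ℝ), 0 < s := eventually_mem_nhdsWithin
  filter_upwards [hlip lam (ε / 2) (by positivity), hlip (-lam') (ε / 2) (by positivity),
    hpos] with s h3 h4 hs z hz hg
  have e3 := h3 z hz
  have e4 := h4 z hz
  rw [hg] at e3 e4
  have k3 : √(a + 2 * lam * b + lam ^ 2) + ε / 2 ≤ lam + b + ε := by linarith
  have hlam'' : √(a + 2 * (-lam') * b + (-lam') ^ 2) ≤ lam' + -b + ε / 2 := by
    have : a + 2 * (-lam') * b + (-lam') ^ 2 = a + 2 * lam' * (-b) + lam' ^ 2 := by ring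
    rw [this]; exact hlam'
  have k4 : √(a + 2 * (-lam') * b + (-lam') ^ 2) + ε / 2 ≤ lam' - b + ε := by linarith
  have m3 := e3.trans (mul_le_mul_of_nonneg_right k3 hs.le)
  have m4 := e4.trans (mul_le_mul_of_nonneg_right k4 hs.le)
  rw [abs_le] at m3 m4 ⊢
  constructor
  · nlinarith [m3.1]
  · nlinarith [m4.2]

/-- D4, elementary half, along a curve. -/
theorem tendsto_slope_of_lip {M : Type*} [PseudoMetricSpace M] {h g : M → ℝ} {y : M}
    {σ : ℝ → M} {a b : ℝ}
    (hσ : ∀ᶠ s in 𝓝[>] (0 : ℝ), σ s ∈ closedBall y s)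
    (hg : ∀ᶠ s in 𝓝[>] (0 : ℝ), g (σ s) = g y - s)
    (hlip : ∀ lam : ℝ, ∀ η : ℝ, 0 < η → ∀ᶠ s in 𝓝[>] (0 : ℝ), ∀ z ∈ closedBall y s,
      |(h z + lam * g z) - (h y + lam * g y)| ≤ (√(a + 2 * lam * b + lam ^ 2) + η) * s) :
    Tendsto (fun s => (h (σ s) - h y) / s) (𝓝[>] (0 : ℝ)) (𝓝 (-b)) := by
  rw [Metric.tendsto_nhds]
  intro ε hε
  have hpos : ∀ᶠ s in 𝓝[>] (0 : ℝ), 0 < s := eventually_mem_nhdsWithin
  filter_upwards [hσ, hg, slope_uniform hlip (half_pos hε), hpos] with s h1 h2 h3 hs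
  have h4 := h3 _ h1 h2
  rw [Real.dist_eq]
  have hq : (h (σ s) - h y) / s - -b = (h (σ s) - h y + b * s) / s := by
    field_simp; ring
  rw [hq, abs_div, abs_of_pos hs, div_lt_iff₀ hs]
  nlinarith

/-! ## Packing -/

/-- Packing bound: `e s`-separated points of `closedBall y s`. -/
theorem card_le_of_pack {M : Type*} [PseudoMetricSpace M] [MeasurableSpace M]
    [OpensMeasurableSpace M] (μ : Measure M) {y : M} {n : ℕ} {c C r₀ e : ℝ} (hc : 0 < c)
    (he : 0 < e) (hC : 0 ≤ C)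
    (hlow : ∀ s : ℝ, 0 < s → s ≤ r₀ → ∀ z ∈ closedBall y r₀,
      ENNReal.ofReal (c * s ^ n) ≤ μ (closedBall z s))
    (hup : ∀ s : ℝ, 0 < s → s ≤ r₀ → μ (closedBall y s) ≤ ENNReal.ofReal (C * s ^ n))
    {s : ℝ} (hs : 0 < s) (hs' : s * (1 + e) ≤ r₀) (T : Finset M) (hT : ↑T ⊆ closedBall y s)
    (hsep : ∀ z ∈ T, ∀ z' ∈ T, z ≠ z' → e * s < dist z z') :
    (T.card : ℝ) ≤ C / c * ((2 + e) / e) ^ n := by
  have hes : 0 < e * s := mul_pos he hs
  have hsr : s ≤ r₀ := le_trans (by nlinarith) hs'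
  have hr1 : e * s / 2 ≤ r₀ := by nlinarith
  have hr2 : s + e * s / 2 ≤ r₀ := by nlinarith
  have hdisj : Set.PairwiseDisjoint (↑T : Set M) (fun z => closedBall z (e * s / 2)) := by
    intro z hz z' hz' hne
    apply closedBall_disjoint_closedBall
    have := hsep z hz z' hz' hne
    linarith
  have hsub : (⋃ z ∈ T, closedBall z (e * s / 2)) ⊆ closedBall y (s + e * s / 2) := by
    refine Set.iUnion₂_subset fun z hz => ?_
    apply closedBall_subset_closedBall'
    have := hT hz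
    rw [mem_closedBall] at this
    linarith
  have h1 : ∑ z ∈ T, μ (closedBall z (e * s / 2)) ≤ μ (closedBall y (s + e * s / 2)) := by
    rw [← measure_biUnion_finset hdisj (fun z _ => isClosed_closedBall.measurableSet)]
    exact measure_mono hsub
  have h2 : (T.card : ℝ≥0∞) * ENNReal.ofReal (c * (e * s / 2) ^ n)
      ≤ ENNReal.ofReal (C * (s + e * s / 2) ^ n) := by
    calc (T.card : ℝ≥0∞) * ENNReal.ofReal (c * (e * s / 2) ^ n)
        = ∑ _z ∈ T, ENNReal.ofReal (c * (e * s / 2) ^ n) := by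
          rw [Finset.sum_const, nsmul_eq_mul]
      _ ≤ ∑ z ∈ T, μ (closedBall z (e * s / 2)) := by
          refine Finset.sum_le_sum fun z hz => ?_
          exact hlow _ (by positivity) hr1 z (closedBall_subset_closedBall hsr (hT hz))
      _ ≤ μ (closedBall y (s + e * s / 2)) := h1
      _ ≤ ENNReal.ofReal (C * (s + e * s / 2) ^ n) := hup _ (by positivity) hr2
  have h3 : (T.card : ℝ) * (c * (e * s / 2) ^ n) ≤ C * (s + e * s / 2) ^ n := by
    have h4 : (T.card : ℝ≥0∞) = ENNReal.ofReal (T.card : ℝ) := by simp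
    rw [h4, ← ENNReal.ofReal_mul (by positivity)] at h2
    exact (ENNReal.ofReal_le_ofReal_iff (by positivity)).1 h2
  have h5 : C / c * ((2 + e) / e) ^ n = (C * (s + e * s / 2) ^ n) / (c * (e * s / 2) ^ n) := by
    have : (2 + e) / e = (s + e * s / 2) / (e * s / 2) := by
      field_simp
    rw [this, div_pow]
    field_simp
  rw [h5, le_div_iff₀ (by positivity)]
  exact h3

/-! ## D7, finite rank at a point -/

/-- Linear algebra: fewer than `k` linear equations have a solution of Gram norm one. -/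
theorem exists_unit_orthogonal {k j : ℕ} (hj : j < k) (G : Matrix (Fin k) (Fin k) ℝ)
    (hG : G.PosDef) (v : ℕ → Fin k → ℝ) :
    ∃ c : Fin k → ℝ, c ⬝ᵥ G.mulVec c = 1 ∧ ∀ i < j, c ⬝ᵥ v i = 0 := by
  classical
  let L : (Fin k → ℝ) →ₗ[ℝ] (Fin j → ℝ) :=
    { toFun := fun c i => c ⬝ᵥ v i
      map_add' := fun c c' => by funext i; exact add_dotProduct _ _ _
      map_smul' := fun a c => by funext i; exact smul_dotProduct _ _ _ }
  have hker : LinearMap.ker L ≠ ⊥ := by
    apply LinearMap.ker_ne_bot_of_finrank_lt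
    simpa using hj
  obtain ⟨c, hc, hc0⟩ := Submodule.exists_mem_ne_zero_of_ne_bot hker
  have hpos : 0 < c ⬝ᵥ G.mulVec c := by
    have := hG.dotProduct_mulVec_pos hc0
    simpa using this
  set q := c ⬝ᵥ G.mulVec c with hq
  have hsq : 0 < √q := Real.sqrt_pos.2 hpos
  refine ⟨(√q)⁻¹ • c, ?_, ?_⟩
  · rw [Matrix.mulVec_smul, dotProduct_smul, smul_dotProduct, ← hq, smul_eq_mul, smul_eq_mul]
    have : √q * √q = q := Real.mul_self_sqrt hpos.le
    field_simp
    nlinarith
  · intro i hi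
    have h1 : L c = 0 := hc
    have h2 : c ⬝ᵥ v i = 0 := by
      have := congrFun h1 ⟨i, hi⟩
      simpa [L] using this
    rw [smul_dotProduct, h2, smul_zero]

/-- The inductive choice of centres. -/
theorem exists_directions {M : Type*} (y : M) {k : ℕ} (G : Matrix (Fin k) (Fin k) ℝ)
    (hG : G.PosDef) (w : M → Fin k → ℝ) (P : Set M) {e₀ : ℝ}
    (hsmall : ∀ c : Fin k → ℝ, c ⬝ᵥ G.mulVec c = 1 → ∃ p ∈ P, e₀ ≤ |c ⬝ᵥ w p|) :
    ∀ j ≤ k, ∃ (p : ℕ → M) (c : ℕ → Fin k → ℝ), ∀ i < j, p i ∈ P ∧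
      c i ⬝ᵥ G.mulVec (c i) = 1 ∧ (∀ i' < i, c i ⬝ᵥ w (p i') = 0) ∧ e₀ ≤ |c i ⬝ᵥ w (p i)| := by
  intro j
  induction j with
  | zero => exact fun _ => ⟨fun _ => y, fun _ _ => 0, fun i hi => absurd hi (Nat.not_lt_zero i)⟩
  | succ j ih =>
    intro hj
    obtain ⟨p, c, hpc⟩ := ih (by omega)
    obtain ⟨c', hc1, hc2⟩ := exists_unit_orthogonal (show j < k by omega) G hG (fun i => w (p i))
    obtain ⟨p', hp', hcp⟩ := hsmall c' hc1
    refine ⟨Function.update p j p', Function.update c j c', fun i hi => ?_⟩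
    rcases Nat.lt_succ_iff_lt_or_eq.1 hi with hij | hij
    · have h1 : Function.update p j p' i = p i := Function.update_of_ne hij.ne _ _
      have h2 : Function.update c j c' i = c i := Function.update_of_ne hij.ne _ _
      rw [h1, h2]
      refine ⟨(hpc i hij).1, (hpc i hij).2.1, fun i' hi' => ?_, (hpc i hij).2.2.2⟩
      rw [Function.update_of_ne (by omega : i' ≠ j)]
      exact (hpc i hij).2.2.1 i' hi'
    · subst hij
      rw [Function.update_self, Function.update_self]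
      refine ⟨hp', hc1, fun i' hi' => ?_, hcp⟩
      rw [Function.update_of_ne (by omega : i' ≠ i)]
      exact hc2 i' hi'

/-- **D7, finite rank at a point `y`.** `f i` are `k` functions, `G` their (positive definite) Gram
matrix at `y`, `w p i` the slope of `f i` at `y` away from `p`. -/
theorem rank_le_of_pack {M : Type*} [MetricSpace M] {y : M} {k : ℕ} (f : Fin k → M → ℝ)
    (G : Matrix (Fin k) (Fin k) ℝ) (hG : G.PosDef) (w : M → Fin k → ℝ) (P : Set M) {e₀ : ℝ}
    (he₀ : 0 < e₀) {N₀ : ℕ}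
    (hsmall : ∀ c : Fin k → ℝ, c ⬝ᵥ G.mulVec c = 1 → ∃ p ∈ P, e₀ ≤ |c ⬝ᵥ w p|)
    (hdir : ∀ p ∈ P, ∃ z : ℝ → M, (∀ᶠ s in 𝓝[>] (0 : ℝ), z s ∈ closedBall y s) ∧
      ∀ i, Tendsto (fun s => (f i (z s) - f i y) / s) (𝓝[>] (0 : ℝ)) (𝓝 (-w p i)))
    (hlip : ∀ c : Fin k → ℝ, c ⬝ᵥ G.mulVec c = 1 → ∀ η : ℝ, 0 < η → ∀ᶠ s in 𝓝[>] (0 : ℝ),
      ∀ z ∈ closedBall y s, ∀ z' ∈ closedBall y s,
        |(∑ i, c i * f i z) - ∑ i, c i * f i z'| ≤ dist z z' + η * s)
    (hpack : ∃ᶠ s in 𝓝[>] (0 : ℝ), ∀ T : Finset M, ↑T ⊆ closedBall y s →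
      (∀ z ∈ T, ∀ z' ∈ T, z ≠ z' → e₀ / 2 * s < dist z z') → T.card ≤ N₀) :
    k ≤ N₀ := by
  classical
  obtain ⟨p, c, hpc⟩ := exists_directions y G hG w P hsmall k le_rfl
  choose! z hz1 hz2 using hdir
  have hpos : ∀ᶠ s in 𝓝[>] (0 : ℝ), 0 < s := eventually_mem_nhdsWithin
  -- all the points lie in the ball
  have hball : ∀ᶠ s in 𝓝[>] (0 : ℝ), ∀ i < k, z (p i) s ∈ closedBall y s := by
    have : ∀ i ∈ Finset.range k, ∀ᶠ s in 𝓝[>] (0 : ℝ), z (p i) s ∈ closedBall y s := by
      intro i hi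
      exact hz1 (p i) (hpc i (Finset.mem_range.1 hi)).1
    filter_upwards [(Finset.eventually_all _).2 this] with s hs i hi
    exact hs i (Finset.mem_range.2 hi)
  -- they are separated
  have hsep : ∀ᶠ s in 𝓝[>] (0 : ℝ), ∀ j < k, ∀ i < j, e₀ / 2 * s < dist (z (p i) s) (z (p j) s) := by
    have key : ∀ j < k, ∀ i < j, ∀ᶠ s in 𝓝[>] (0 : ℝ),
        e₀ / 2 * s < dist (z (p i) s) (z (p j) s) := by
      intro j hj a haj
      have ha : a < k := haj.trans hj
      obtain ⟨-, hc1, hc2, hc3⟩ := hpc j hj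
      -- slopes of the combination
      have hsl : ∀ l < k, Tendsto (fun s => (∑ i, c j i * (f i (z (p l) s) - f i y) / s))
          (𝓝[>] (0 : ℝ)) (𝓝 (-(c j ⬝ᵥ w (p l)))) := by
        intro l hl
        have : -(c j ⬝ᵥ w (p l)) = ∑ i, c j i * (-w (p l) i) := by
          simp [dotProduct, Finset.sum_neg_distrib]
        rw [this]
        refine tendsto_finsetSum _ fun i _ => ?_
        have := (hz2 (p l) (hpc l hl).1 i).const_mul (c j i)
        refine this.congr fun s => ?_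
        ring
      have hdiff : Tendsto (fun s => (∑ i, c j i * (f i (z (p a) s) - f i y) / s) -
          ∑ i, c j i * (f i (z (p j) s) - f i y) / s) (𝓝[>] (0 : ℝ))
          (𝓝 (-(c j ⬝ᵥ w (p a)) - -(c j ⬝ᵥ w (p j)))) := (hsl a ha).sub (hsl j hj)
      rw [hc2 a haj, neg_zero, zero_sub, neg_neg] at hdiff
      have habs := hdiff.abs
      have hev : ∀ᶠ s in 𝓝[>] (0 : ℝ), 3 / 4 * e₀ <
          |(∑ i, c j i * (f i (z (p a) s) - f i y) / s) -
            ∑ i, c j i * (f i (z (p j) s) - f i y) / s| := by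
        apply habs.eventually_const_lt
        linarith
      filter_upwards [hev, hlip (c j) hc1 (e₀ / 4) (by positivity), hball, hpos]
        with s h1 h2 h3 hs
      have h4 := h2 _ (h3 a ha) _ (h3 j hj)
      have h5 : (∑ i, c j i * (f i (z (p a) s) - f i y) / s) -
          ∑ i, c j i * (f i (z (p j) s) - f i y) / s =
          ((∑ i, c j i * f i (z (p a) s)) - ∑ i, c j i * f i (z (p j) s)) / s := by
        rw [← Finset.sum_sub_distrib, ← Finset.sum_sub_distrib, Finset.sum_div]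
        refine Finset.sum_congr rfl fun i _ => ?_
        ring
      rw [h5, abs_div, abs_of_pos hs, lt_div_iff₀ hs] at h1
      nlinarith
    have : ∀ j ∈ Finset.range k, ∀ᶠ s in 𝓝[>] (0 : ℝ), ∀ i ∈ Finset.range j,
        e₀ / 2 * s < dist (z (p i) s) (z (p j) s) := by
      intro j hj
      refine (Finset.eventually_all _).2 fun i hi => ?_
      exact key j (Finset.mem_range.1 hj) i (Finset.mem_range.1 hi)
    filter_upwards [(Finset.eventually_all _).2 this] with s hs j hj i hi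
    exact hs j (Finset.mem_range.2 hj) i (Finset.mem_range.2 hi)
  obtain ⟨s, hs1, hs2, hs3, hs4⟩ := (hpack.and_eventually (hball.and (hsep.and hpos))).exists
  have hinj : Set.InjOn (fun i => z (p i) s) (↑(Finset.range k) : Set ℕ) := by
    intro i hi j hj hij
    by_contra hne
    rcases lt_or_gt_of_ne hne with h | h
    · have := hs3 j (by simpa using hj) i h
      simp only at hij
      rw [hij, dist_self] at this
      nlinarith
    · have := hs3 i (by simpa using hi) j h
      simp only at hij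
      rw [hij, dist_self] at this
      nlinarith
  have hcard := hs1 ((Finset.range k).image fun i => z (p i) s) ?_ ?_
  · rwa [Finset.card_image_of_injOn hinj, Finset.card_range] at hcard
  · intro x hx
    simp only [Finset.coe_image, Finset.coe_range, Set.mem_image, Set.mem_Iio] at hx
    obtain ⟨i, hi, rfl⟩ := hx
    exact hs2 i hi
  · intro x hx x' hx' hne
    simp only [Finset.mem_image, Finset.mem_range] at hx hx'
    obtain ⟨i, hi, rfl⟩ := hx
    obtain ⟨j, hj, rfl⟩ := hx'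
    have hij : i ≠ j := fun h => hne (by rw [h])
    rcases lt_or_gt_of_ne hij with h | h
    · exact hs3 j hj i h
    · rw [dist_comm]; exact hs3 i hi j h

/-! ## D6, abstract half: small balls of directions -/

/-- The set of the `p` such that `b` oscillates little at all points of short geodesics from `y`
towards `p` is measurable. -/
theorem measurableSet_good {M : Type*} [MetricSpace M] [ProperSpace M] [MeasurableSpace M]
    [BorelSpace M] {b : M → ℝ} (hb : Continuous b) (y : M) (r e : ℝ) :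
    MeasurableSet {p : M | ∀ z, dist y z < r → dist y z + dist z p = dist y p →
      |b z - b y| ≤ e * dist y z} := by
  have hcl : ∀ k : ℕ, IsClosed {p : M | ∃ z ∈ closedBall y (r - 1 / (k + 1)),
      dist y z + dist z p = dist y p ∧ e * dist y z + 1 / (k + 1) ≤ |b z - b y|} := by
    intro k
    apply IsSeqClosed.isClosed
    intro u p hu hup
    choose z hz h1 h2 using hu
    obtain ⟨z₀, hz₀, φ, hφ, hlim⟩ := (isCompact_closedBall y (r - 1 / (k + 1))).tendsto_subseq hz
    have hup' : Tendsto (fun j => u (φ j)) atTop (𝓝 p) := hup.comp hφ.tendsto_atTop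
    refine ⟨z₀, hz₀, ?_, ?_⟩
    · refine tendsto_nhds_unique ?_ (tendsto_const_nhds.dist hup')
      refine ((tendsto_const_nhds.dist hlim).add (hlim.dist hup')).congr fun j => ?_
      exact h1 (φ j)
    · refine le_of_tendsto_of_tendsto' (((tendsto_const_nhds.dist hlim).const_mul e).add
        tendsto_const_nhds) (((hb.tendsto z₀).comp hlim).sub tendsto_const_nhds).abs fun j => ?_
      exact h2 (φ j)
  have hset : {p : M | ∀ z, dist y z < r → dist y z + dist z p = dist y p →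
      |b z - b y| ≤ e * dist y z} = (⋃ k : ℕ, {p : M | ∃ z ∈ closedBall y (r - 1 / (k + 1)),
      dist y z + dist z p = dist y p ∧ e * dist y z + 1 / (k + 1) ≤ |b z - b y|})ᶜ := by
    ext p
    simp only [Set.mem_ofPred_eq, Set.mem_compl_iff, Set.mem_iUnion, not_exists, not_and, not_le]
    constructor
    · intro h k z hz h1
      have h0 : (0 : ℝ) < 1 / (k + 1) := by positivity
      rw [mem_closedBall, dist_comm] at hz
      have h2 := h z (by linarith) h1
      linarith
    · intro h z hz h1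
      by_contra hcon
      rw [not_le] at hcon
      obtain ⟨k, hk⟩ := exists_nat_one_div_lt (lt_min (sub_pos.2 hz) (sub_pos.2 hcon))
      have hk1 := lt_of_lt_of_le hk (min_le_left _ _)
      have hk2 := lt_of_lt_of_le hk (min_le_right _ _)
      have := h k z (by rw [mem_closedBall, dist_comm]; linarith) h1
      linarith
  rw [hset]
  exact (MeasurableSet.iUnion fun k => (hcl k).measurableSet).compl

/-- **D6, abstract half.** `w p` is the slope of `b` at `y` away from `p` (`hD4`); `hBM` is the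
contraction property with exponent `n` towards `y`; `hslab` is the slab bound D5. -/
theorem small_directions {M : Type*} [MetricSpace M] [ProperSpace M] [MeasurableSpace M]
    [BorelSpace M] (μ : Measure M) {y : M} {B : Set M} (hB : MeasurableSet B) {R c C e : ℝ}
    {n : ℕ} (hR : 0 < R) (hc : 0 < c) (he : 0 < e) (hBR : B ⊆ closedBall y R)
    {b : M → ℝ} (hb : Continuous b) {w : M → ℝ} (hw : Measurable w)
    (hD4 : ∀ᵐ p ∂(μ.restrict B), ∀ᶠ s in 𝓝[>] (0 : ℝ), ∀ z, dist y z = s →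
      dist y z + dist z p = dist y p → |b z - b y + w p * s| ≤ e * s)
    (hBM : ∀ A ⊆ B, MeasurableSet A → ∃ᶠ t in 𝓝[>] (0 : ℝ), ∀ Z, MeasurableSet Z →
      (∀ p ∈ A, ∀ z, dist y z = t * dist y p → dist y z + dist z p = dist y p → z ∈ Z) →
        ENNReal.ofReal (c * t ^ n) * μ A ≤ μ Z)
    (hslab : ∀ᶠ s in 𝓝[>] (0 : ℝ), μ {z | z ∈ closedBall y s ∧ |b z - b y| ≤ 2 * e * s} ≤
      ENNReal.ofReal (C * (2 * e) * s ^ n)) :
    μ {p | p ∈ B ∧ |w p| < e} ≤ ENNReal.ofReal (2 * C * R ^ n / c * e) := by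
  set Gd : ℕ → Set M := fun j => {p : M | ∀ z, dist y z < 1 / ((j : ℝ) + 1) →
    dist y z + dist z p = dist y p → |b z - b y| ≤ 2 * e * dist y z} with hGd
  set A : ℕ → Set M := fun j => {p | p ∈ B ∧ |w p| < e} ∩ Gd j with hA
  have hAmeas : ∀ j, MeasurableSet (A j) := fun j =>
    (hB.inter (measurableSet_lt hw.abs measurable_const)).inter (measurableSet_good hb y _ _)
  have hAB : ∀ j, A j ⊆ B := fun j p hp => hp.1.1
  have hmono : Monotone A := by
    intro i j hij p hp
    refine ⟨hp.1, fun z hz h => hp.2 z (hz.trans_le ?_) h⟩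
    have : ((i : ℝ) + 1) ≤ (j : ℝ) + 1 := by
      have : (i : ℝ) ≤ j := by exact_mod_cast hij
      linarith
    exact one_div_le_one_div_of_le (by positivity) this
  -- the bound for `A j`
  have hbound : ∀ j, μ (A j) ≤ ENNReal.ofReal (2 * C * R ^ n / c * e) := by
    intro j
    have hpos : ∀ᶠ t in 𝓝[>] (0 : ℝ), 0 < t := eventually_mem_nhdsWithin
    have hlt : Tendsto (fun t : ℝ => t * R) (𝓝[>] (0 : ℝ)) (𝓝[>] (0 : ℝ)) := by
      refine tendsto_nhdsWithin_iff.2 ⟨?_, hpos.mono fun t ht => mul_pos ht hR⟩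
      have : Tendsto (fun t : ℝ => t * R) (𝓝 (0 : ℝ)) (𝓝 (0 * R)) :=
        (continuous_id.mul continuous_const).tendsto 0
      rw [zero_mul] at this
      exact this.mono_left nhdsWithin_le_nhds
    have hsm : ∀ᶠ s in 𝓝[>] (0 : ℝ), s < 1 / ((j : ℝ) + 1) :=
      (eventually_lt_nhds (by positivity)).filter_mono nhdsWithin_le_nhds
    obtain ⟨t, ht1, ht2, ht3, ht0⟩ := ((hBM (A j) (hAB j) (hAmeas j)).and_eventually
      ((hlt.eventually hslab).and ((hlt.eventually hsm).and hpos))).exists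
    have hZ : MeasurableSet {z | z ∈ closedBall y (t * R) ∧ |b z - b y| ≤ 2 * e * (t * R)} := by
      exact (isClosed_closedBall.inter
        (isClosed_le (hb.sub continuous_const).abs continuous_const)).measurableSet
    have h1 := ht1 _ hZ ?_
    · have h2 := h1.trans ht2
      have hct : 0 < c * t ^ n := by positivity
      calc μ (A j) = ENNReal.ofReal ((c * t ^ n)⁻¹) * (ENNReal.ofReal (c * t ^ n) * μ (A j)) := by
            rw [← mul_assoc, ← ENNReal.ofReal_mul (by positivity), inv_mul_cancel₀ hct.ne']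
            simp
        _ ≤ ENNReal.ofReal ((c * t ^ n)⁻¹) * ENNReal.ofReal (C * (2 * e) * (t * R) ^ n) := by
            gcongr
        _ = ENNReal.ofReal (2 * C * R ^ n / c * e) := by
            rw [← ENNReal.ofReal_mul (by positivity)]
            congr 1
            rw [mul_pow]
            field_simp
    · intro p hp z hz1 hz2
      have hpR : dist y p ≤ R := by
        have := hBR (hAB j hp)
        rwa [mem_closedBall, dist_comm] at this
      have hz3 : dist y z ≤ t * R := by rw [hz1]; gcongr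
      have h4 := hp.2 z (hz3.trans_lt ht3) hz2
      refine ⟨by rw [mem_closedBall, dist_comm]; exact hz3, h4.trans ?_⟩
      gcongr
  -- exhaustion
  have hsub : μ ({p | p ∈ B ∧ |w p| < e} \ ⋃ j, A j) = 0 := by
    rw [ae_restrict_iff' hB, ae_iff] at hD4
    refine measure_mono_null ?_ hD4
    rintro p ⟨⟨hpB, hpw⟩, hpA⟩ hcon
    apply hpA
    have h1 := hcon hpB
    rw [eventually_nhdsWithin_iff, Metric.eventually_nhds_iff] at h1
    obtain ⟨δ, hδ, h2⟩ := h1
    obtain ⟨j, hj⟩ := exists_nat_one_div_lt hδ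
    refine Set.mem_iUnion.2 ⟨j, ⟨hpB, hpw⟩, fun z hz hz2 => ?_⟩
    rcases (dist_nonneg (x := y) (y := z)).eq_or_lt with h0 | h0
    · have : y = z := dist_eq_zero.1 h0.symm
      subst this
      simp
    · have h3 := h2 (y := dist y z) (by
        rw [Real.dist_eq, sub_zero, abs_of_pos h0]; exact hz.trans hj) h0 z rfl hz2
      have h4 : |w p * dist y z| ≤ e * dist y z := by
        rw [abs_mul, abs_of_pos h0]
        gcongr
      have h5 : b z - b y = (b z - b y + w p * dist y z) - w p * dist y z := by ring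
      rw [h5]
      refine (abs_sub _ _).trans ?_
      linarith
  calc μ {p | p ∈ B ∧ |w p| < e}
      ≤ μ ((⋃ j, A j) ∪ ({p | p ∈ B ∧ |w p| < e} \ ⋃ j, A j)) :=
        measure_mono fun p hp => by
          by_cases h : p ∈ ⋃ j, A j
          · exact Or.inl h
          · exact Or.inr ⟨hp, h⟩
    _ ≤ μ (⋃ j, A j) + μ ({p | p ∈ B ∧ |w p| < e} \ ⋃ j, A j) := measure_union_le _ _
    _ = μ (⋃ j, A j) := by rw [hsub, add_zero]
    _ = ⨆ j, μ (A j) := hmono.measure_iUnion
    _ ≤ ENNReal.ofReal (2 * C * R ^ n / c * e) := iSup_le hbound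

/-! ## D7 with measures: the form used at almost every point -/

/-- **D7 at a point, measure form.** `P ⊆ B` is a set of full measure of good centres. `k`-tuples of
functions with positive definite Gram matrix at `y` satisfy `k ≤ N₀`, where `N₀` only depends on the
constants `c₁, C₁` of the two-sided volume bound, on `n` and on `e₀`. -/
theorem rank_le_of_measure {M : Type*} [MetricSpace M] [MeasurableSpace M]
    [OpensMeasurableSpace M] (μ : Measure M) {y : M} {k n : ℕ} (f : Fin k → M → ℝ)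
    (G : Matrix (Fin k) (Fin k) ℝ) (hG : G.PosDef) (w : M → Fin k → ℝ) (B P : Set M)
    (hP : ∀ᵐ p ∂(μ.restrict B), p ∈ P) (hB : MeasurableSet B) {e₀ c₁ C₁ r₀ : ℝ} (he₀ : 0 < e₀)
    (hc₁ : 0 < c₁) (hC₁ : 0 ≤ C₁) (hr₀ : 0 < r₀)
    (hsmall : ∀ c : Fin k → ℝ, c ⬝ᵥ G.mulVec c = 1 → μ {p | p ∈ B ∧ |c ⬝ᵥ w p| < e₀} < μ B)
    (hdir : ∀ p ∈ P, ∃ z : ℝ → M, (∀ᶠ s in 𝓝[>] (0 : ℝ), z s ∈ closedBall y s) ∧
      ∀ i, Tendsto (fun s => (f i (z s) - f i y) / s) (𝓝[>] (0 : ℝ)) (𝓝 (-w p i)))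
    (hlip : ∀ c : Fin k → ℝ, c ⬝ᵥ G.mulVec c = 1 → ∀ η : ℝ, 0 < η → ∀ᶠ s in 𝓝[>] (0 : ℝ),
      ∀ z ∈ closedBall y s, ∀ z' ∈ closedBall y s,
        |(∑ i, c i * f i z) - ∑ i, c i * f i z'| ≤ dist z z' + η * s)
    (hlow : ∀ s : ℝ, 0 < s → s ≤ r₀ → ∀ z ∈ closedBall y r₀,
      ENNReal.ofReal (c₁ * s ^ n) ≤ μ (closedBall z s))
    (hup : ∀ s : ℝ, 0 < s → s ≤ r₀ → μ (closedBall y s) ≤ ENNReal.ofReal (C₁ * s ^ n)) :
    k ≤ ⌊C₁ / c₁ * ((2 + e₀ / 2) / (e₀ / 2)) ^ n⌋₊ := by
  refine rank_le_of_pack f G hG w P he₀ (fun c hc => ?_) hdir hlip ?_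
  · by_contra hcon
    have hcon' : ∀ p ∈ P, |c ⬝ᵥ w p| < e₀ := fun p hp => by
      by_contra h
      exact hcon ⟨p, hp, not_lt.1 h⟩
    refine absurd (hsmall c hc) (not_lt.2 ?_)
    rw [ae_restrict_iff' hB, ae_iff] at hP
    calc μ B ≤ μ ({p | p ∈ B ∧ |c ⬝ᵥ w p| < e₀} ∪ {p | ¬(p ∈ B → p ∈ P)}) := by
          refine measure_mono fun p hp => ?_
          by_cases h : p ∈ P
          · exact Or.inl ⟨hp, hcon' p h⟩
          · exact Or.inr fun h' => h (h' hp)
      _ ≤ μ {p | p ∈ B ∧ |c ⬝ᵥ w p| < e₀} + μ {p | ¬(p ∈ B → p ∈ P)} := measure_union_le _ _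
      _ = μ {p | p ∈ B ∧ |c ⬝ᵥ w p| < e₀} := by rw [hP, add_zero]
  · apply Eventually.frequently
    have hpos : ∀ᶠ s in 𝓝[>] (0 : ℝ), 0 < s := eventually_mem_nhdsWithin
    have hsm : ∀ᶠ s in 𝓝[>] (0 : ℝ), s < r₀ / (1 + e₀ / 2) :=
      (eventually_lt_nhds (by positivity)).filter_mono nhdsWithin_le_nhds
    filter_upwards [hpos, hsm] with s hs hs' T hT hsep
    rw [lt_div_iff₀ (by positivity)] at hs'
    exact Nat.le_floor (card_le_of_pack μ hc₁ (half_pos he₀) hC₁ hlow hup hs hs'.le T hT hsep)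

end Vale.Agent.P233.H134
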