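import Vale.Agent.P233.Gig.IfD
import Vale.Agent.P233.H134.Rank

/-! P233, block D7 (helper134): finite rank of the Gram matrices of test functions. -/

namespace Vale.Agent.P233.H134

open Filter Topology MeasureTheory Set Metric
open scoped ENNReal

universe u

/-- The coefficients of a tuple `i : Fin k → ℕ` as a sequence. -/
noncomputable def spread {k : ℕ} (i : Fin k → ℕ) (c : Fin k → ℝ) (j : ℕ) : ℝ :=
  ∑ a, if i a = j then c a else 0

/-- A bound for the indices of a tuple. -/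
def top {k : ℕ} (i : Fin k → ℕ) : ℕ := (Finset.univ.sup i) + 1

theorem lt_top {k : ℕ} (i : Fin k → ℕ) (a : Fin k) : i a ∈ Finset.range (top i) := by
  rw [Finset.mem_range, top, Nat.lt_succ_iff]
  exact Finset.le_sup (f := i) (Finset.mem_univ a)

theorem sum_spread {k : ℕ} (i : Fin k → ℕ) (c : Fin k → ℝ) (F : ℕ → ℝ) :
    ∑ j ∈ Finset.range (top i), spread i c j * F j = ∑ a, c a * F (i a) := by
  simp only [spread, Finset.sum_mul]
  rw [Finset.sum_comm]
  refine Finset.sum_congr rfl fun a _ => ?_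
  rw [Finset.sum_eq_single (i a)]
  · simp
  · intro j _ hj
    rw [if_neg (fun h => hj h.symm), zero_mul]
  · intro h
    exact absurd (lt_top i a) h

theorem qf_spread {M : Type*} {k : ℕ} (G : ℕ → ℕ → M → ℝ) (i : Fin k → ℕ) (c : Fin k → ℝ) (y : M) :
    PD.qf G (top i) (spread i c) y =
      c ⬝ᵥ (Matrix.of fun a a' : Fin k => G (i a) (i a') y).mulVec c := by
  have h1 : PD.qf G (top i) (spread i c) y = ∑ j ∈ Finset.range (top i), spread i c j *
      ∑ j' ∈ Finset.range (top i), spread i c j' * G j j' y := by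
    unfold PD.qf
    refine Finset.sum_congr rfl fun j _ => ?_
    rw [Finset.mul_sum]
    exact Finset.sum_congr rfl fun j' _ => by ring
  rw [h1, sum_spread i c (fun j => ∑ j' ∈ Finset.range (top i), spread i c j' * G j j' y)]
  simp only [dotProduct, Matrix.mulVec, Matrix.of_apply]
  refine Finset.sum_congr rfl fun a _ => ?_
  rw [sum_spread i c (fun j' => G (i a) j' y)]
  congr 1
  exact Finset.sum_congr rfl fun j' _ => by ring

/-- **Block D7.** -/
theorem blk_D7 : PD.Blk_D7.{u} := by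
  intro M _ _ _ _ _ m n K hSp hBG hGeo hLip hFV hCS hSB x₀ R₀
  have hn : 0 < n := by
    have := hSp.std.hN
    exact_mod_cast this
  rcases le_or_gt R₀ 0 with hR₀ | hR₀
  · exact ⟨0, fun f b G g _ => ae_of_all _ fun y hy => absurd hy (not_lt.2 (hR₀.trans dist_nonneg))⟩
  obtain ⟨C, hC⟩ := hSB x₀ R₀
  obtain ⟨c₁, hc₁, C₁, hvol⟩ := hGeo.vol x₀ (R₀ + 1)
  have := hSp.std.full
  set B : Set M := {p | dist x₀ p < R₀} with hBdef
  have hBball : B = ball x₀ R₀ := by
    ext p; simp [hBdef, dist_comm]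
  have hBpos : 0 < m B := by rw [hBball]; exact measure_ball_pos m x₀ hR₀
  have hBfin : m B < ∞ := by rw [hBball]; exact hSp.std.hfin _ _
  have hBmeas : MeasurableSet B := by rw [hBball]; exact measurableSet_ball
  -- the constant `e₀`
  obtain ⟨e₀, he₀, he₀C⟩ : ∃ e₀ : ℝ, 0 < e₀ ∧ ENNReal.ofReal (C * e₀) < m B := by
    have hreal : 0 < (m B).toReal := ENNReal.toReal_pos hBpos.ne' hBfin.ne
    refine ⟨(m B).toReal / (2 * (|C| + 1)), by positivity, ?_⟩
    have h1 : C * ((m B).toReal / (2 * (|C| + 1))) ≤ |C| * ((m B).toReal / (2 * (|C| + 1))) :=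
      mul_le_mul_of_nonneg_right (le_abs_self C) (by positivity)
    have h2 : |C| * ((m B).toReal / (2 * (|C| + 1))) < (m B).toReal := by
      rw [mul_div_assoc', div_lt_iff₀ (by positivity)]
      nlinarith [abs_nonneg C]
    calc ENNReal.ofReal (C * ((m B).toReal / (2 * (|C| + 1))))
        ≤ ENNReal.ofReal (|C| * ((m B).toReal / (2 * (|C| + 1)))) := ENNReal.ofReal_le_ofReal h1
      _ < m B := (ENNReal.ofReal_lt_iff_lt_toReal (by positivity) hBfin.ne).2 h2
  refine ⟨⌊max (C₁ * 2 ^ n) 0 / c₁ * ((2 + e₀ / 2) / (e₀ / 2)) ^ n⌋₊, fun f b G g hT => ?_⟩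
  have hFV' : ∀ᵐ y ∂m, ∀ i, ∀ᵐ p ∂m, PD.FV (b i) p y (g i p y) :=
    ae_all_iff.2 fun i => hFV (f i) (b i) (g i) (hT.lip i) (hT.ver i)
  filter_upwards [hC f b G g hT, hLip f b G g hT, hFV'] with y hy1 hy2 hy3 hyR k i hpd
  -- volume bounds near `y`
  have hyball : ∀ z ∈ closedBall y (1 / 2), z ∈ ball x₀ (R₀ + 1) := by
    intro z hz
    rw [mem_closedBall] at hz
    rw [mem_ball]
    have := dist_triangle z y x₀
    rw [dist_comm y x₀] at this
    linarith
  have hlow : ∀ s : ℝ, 0 < s → s ≤ 1 / 2 → ∀ z ∈ closedBall y (1 / 2),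
      ENNReal.ofReal (c₁ * s ^ n) ≤ m (closedBall z s) := fun s hs hs' z hz =>
    ((hvol z (hyball z hz) s hs (by linarith)).1).trans (measure_mono ball_subset_closedBall)
  have hup : ∀ s : ℝ, 0 < s → s ≤ 1 / 2 →
      m (closedBall y s) ≤ ENNReal.ofReal (max (C₁ * 2 ^ n) 0 * s ^ n) := fun s hs hs' => by
    calc m (closedBall y s) ≤ m (ball y (2 * s)) :=
          measure_mono (closedBall_subset_ball (by linarith))
      _ ≤ ENNReal.ofReal (C₁ * (2 * s) ^ n) :=
          (hvol y (hyball y (mem_closedBall_self (by norm_num))) (2 * s) (by linarith)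
            (by linarith)).2
      _ ≤ ENNReal.ofReal (max (C₁ * 2 ^ n) 0 * s ^ n) := by
          apply ENNReal.ofReal_le_ofReal
          rw [mul_pow, ← mul_assoc]
          exact mul_le_mul_of_nonneg_right (le_max_left _ _) (by positivity)
  -- the point `y` is a null set
  have hnull : m {y} = 0 := by
    have h1 : ∀ᶠ s in 𝓝[>] (0 : ℝ), m {y} ≤ ENNReal.ofReal (max (C₁ * 2 ^ n) 0 * s ^ n) := by
      have hpos : ∀ᶠ s in 𝓝[>] (0 : ℝ), 0 < s := eventually_mem_nhdsWithin
      have hsm : ∀ᶠ s in 𝓝[>] (0 : ℝ), s < 1 / 2 :=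
        (eventually_lt_nhds (by norm_num)).filter_mono nhdsWithin_le_nhds
      filter_upwards [hpos, hsm] with s hs hs'
      refine le_trans (measure_mono ?_) (hup s hs hs'.le)
      intro z hz
      rw [Set.mem_singleton_iff] at hz
      subst hz
      exact mem_closedBall_self hs.le
    have h2 : Tendsto (fun s : ℝ => ENNReal.ofReal (max (C₁ * 2 ^ n) 0 * s ^ n)) (𝓝[>] (0 : ℝ))
        (𝓝 0) := by
      have : Tendsto (fun s : ℝ => ENNReal.ofReal (max (C₁ * 2 ^ n) 0 * s ^ n)) (𝓝 (0 : ℝ))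
          (𝓝 (ENNReal.ofReal (max (C₁ * 2 ^ n) 0 * 0 ^ n))) :=
        (ENNReal.continuous_ofReal.comp (by fun_prop)).tendsto 0
      rw [zero_pow hn.ne', mul_zero, ENNReal.ofReal_zero] at this
      exact this.mono_left nhdsWithin_le_nhds
    exact le_antisymm (ge_of_tendsto h2 h1) zero_le
  set w : M → Fin k → ℝ := fun p a => g (i a) p y with hw
  have hwsum : ∀ (c : Fin k → ℝ) (p : M),
      ∑ j ∈ Finset.range (top i), spread i c j * g j p y = c ⬝ᵥ w p := fun c p =>
    sum_spread i c (fun j => g j p y)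
  set P : Set M := {p | p ≠ y ∧ ∀ j, PD.FV (b j) p y (g j p y)} with hPdef
  have hP : ∀ᵐ p ∂(m.restrict B), p ∈ P := by
    apply ae_restrict_of_ae
    have h1 : ∀ᵐ p ∂m, p ≠ y := by
      rw [ae_iff]
      simpa using hnull
    filter_upwards [h1, ae_all_iff.2 hy3] with p h1 h2
    exact ⟨h1, h2⟩
  refine rank_le_of_measure m (fun a z => b (i a) z)
    (Matrix.of fun a a' : Fin k => G (i a) (i a') y) hpd w B P hP hBmeas (r₀ := 1 / 2) he₀ hc₁
    (le_max_right _ _) (by norm_num) ?_ ?_ ?_ hlow hup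
  · -- small balls
    intro c hc
    have h1 := hy1 hyR (top i) (spread i c) (by rw [qf_spread]; exact hc) e₀ he₀
    refine lt_of_le_of_lt ?_ he₀C
    refine le_trans (measure_mono ?_) h1
    intro p hp
    exact ⟨hp.1, by rw [hwsum]; exact hp.2⟩
  · -- directions
    rintro p ⟨hpy, hpFV⟩
    have hd : 0 < dist y p := dist_pos.2 (Ne.symm hpy)
    have hgeo : ∀ s : ℝ, ∃ z : M, 0 ≤ s → s ≤ dist y p → dist y z = s ∧ dist z p = dist y p - s := by
      intro s
      by_cases hs : 0 ≤ s ∧ s ≤ dist y p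
      · obtain ⟨z, hz1, hz2⟩ := hGeo.geod y p s (dist y p - s) hs.1 (by linarith [hs.2]) (by ring)
        exact ⟨z, fun _ _ => ⟨hz1, hz2⟩⟩
      · exact ⟨y, fun h1 h2 => absurd ⟨h1, h2⟩ hs⟩
    choose z hz using hgeo
    have hpos : ∀ᶠ s in 𝓝[>] (0 : ℝ), 0 < s := eventually_mem_nhdsWithin
    have hsm : ∀ δ > 0, ∀ᶠ s in 𝓝[>] (0 : ℝ), s < δ := fun δ hδ =>
      (eventually_lt_nhds hδ).filter_mono nhdsWithin_le_nhds
    refine ⟨z, ?_, fun a => ?_⟩
    · filter_upwards [hpos, hsm _ hd] with s hs hs'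
      rw [mem_closedBall, dist_comm, (hz s hs.le hs'.le).1]
    · rw [Metric.tendsto_nhds]
      intro ε hε
      obtain ⟨δ, hδ, hfv⟩ := hpFV (i a) (ε / 2) (half_pos hε)
      filter_upwards [hpos, hsm _ hd, hsm _ hδ] with s hs hs' hsδ
      obtain ⟨h1, h2⟩ := hz s hs.le hs'.le
      have h3 := hfv (z s) (by rw [h1]; exact hsδ) (by rw [h1, h2]; ring)
      rw [h1] at h3
      rw [Real.dist_eq]
      have hq : (b (i a) (z s) - b (i a) y) / s - -w p a =
          (b (i a) (z s) - b (i a) y + s * g (i a) p y) / s := by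
        simp only [hw]
        field_simp
        ring
      rw [hq, abs_div, abs_of_pos hs, div_lt_iff₀ hs]
      nlinarith
  · -- the Lipschitz bound
    intro c hc η hη
    obtain ⟨r₀, hr₀, hr⟩ := (hy2 (top i) (spread i c)).2 η hη
    have hpos : ∀ᶠ s in 𝓝[>] (0 : ℝ), 0 < s := eventually_mem_nhdsWithin
    have hsm : ∀ᶠ s in 𝓝[>] (0 : ℝ), s < r₀ :=
      (eventually_lt_nhds hr₀).filter_mono nhdsWithin_le_nhds
    filter_upwards [hpos, hsm] with s hs hs' z hz z' hz'
    have h1 := hr s hs hs'.le z hz z' hz'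
    rw [qf_spread, hc, Real.sqrt_one, one_mul,
      sum_spread i c (fun j => b j z - b j z')] at h1
    have h2 : (∑ a, c a * b (i a) z) - ∑ a, c a * b (i a) z' =
        ∑ a, c a * (b (i a) z - b (i a) z') := by
      rw [← Finset.sum_sub_distrib]
      exact Finset.sum_congr rfl fun a _ => by ring
    rw [h2]
    exact h1

end Vale.Agent.P233.H134
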