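import Vale.Agent.P233.Gig.IfC
import Vale.Agent.P233.H183.Unit
import Vale.Agent.P233.H416.Curve
import Vale.Agent.P233.H689.Op

/-! P233, block C4, part a: transport of the continuity equation to the maps `Y t`
(helper134). -/

set_option linter.all false

open MeasureTheory Filter Topology Set
open scoped ENNReal NNReal InnerProductSpace

universe u

namespace Vale.Agent.P233.H134

open Vale.Agent.P233 Vale.Agent.P233.PC
open Vale.Agent.P233.Mult (indc indc_ae indc_mem)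
open TopologicalSpace (denseSeq denseRange_denseSeq)

/-! ### elementary consequences of `Maps` -/

section maps

variable {M : Type u} [MetricSpace M] [MeasurableSpace M] {m : Measure M}
variable {ρ : ℝ → M →ₘ[m] ℝ} {R : ℝ → ℝ → (M →ₘ[m] ℝ) → (M →ₘ[m] ℝ)} {Y : ℝ → M → M} {t : ℝ}

theorem one_mem : (1 : ℝ) ∈ Ioc (0 : ℝ) 1 := ⟨one_pos, le_rfl⟩

theorem Maps.map_eq (h : Maps ρ R Y) (ht : t ∈ Ioc (0 : ℝ) 1) :
    m.map (Y t) = m.withDensity (fun x => ENNReal.ofReal (ρ t x)) := by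
  ext A hA
  rw [Measure.map_apply (h.meas t ht) hA, withDensity_apply _ hA, h.map t ht A hA]

theorem Maps.qmp (h : Maps ρ R Y) (ht : t ∈ Ioc (0 : ℝ) 1) :
    Measure.QuasiMeasurePreserving (Y t) m m :=
  ⟨h.meas t ht, by rw [Maps.map_eq h ht]; exact withDensity_absolutelyContinuous _ _⟩

theorem Maps.ae (h : Maps ρ R Y) (ht : t ∈ Ioc (0 : ℝ) 1) {q : M → Prop} (hq : ∀ᵐ x ∂m, q x) :
    ∀ᵐ x ∂m, q (Y t x) := (Maps.qmp h ht).ae hq

theorem Maps.int (h : Maps ρ R Y) (ht : t ∈ Ioc (0 : ℝ) 1) (h0 : 0 ≤ ρ t) {b : M → ℝ}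
    (hb : AEStronglyMeasurable b m) : ∫ x, b (Y t x) ∂m = ∫ x, ρ t x * b x ∂m := by
  have h1 : ∫ x, b (Y t x) ∂m = ∫ y, b y ∂(m.map (Y t)) := by
    rw [integral_map (h.meas t ht).aemeasurable]
    exact hb.mono_ac (Maps.qmp h ht).absolutelyContinuous
  have h2 : Measurable fun x => Real.toNNReal (ρ t x) := (ρ t).measurable.real_toNNReal
  have h3 : m.withDensity (fun x => ENNReal.ofReal (ρ t x))
      = m.withDensity (fun x => ((Real.toNNReal (ρ t x) : ℝ≥0) : ℝ≥0∞)) := rfl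
  rw [h1, Maps.map_eq h ht, h3, integral_withDensity_eq_integral_smul h2]
  refine integral_congr_ae ?_
  filter_upwards [nonneg_iff_ae.1 h0] with x hx
  rw [NNReal.smul_def, Real.coe_toNNReal _ hx, smul_eq_mul]

theorem Maps.integrable (h : Maps ρ R Y) (ht : t ∈ Ioc (0 : ℝ) 1) (h0 : 0 ≤ ρ t) {b : M → ℝ}
    (hb : AEStronglyMeasurable b m) (hi : Integrable (fun x => ρ t x * b x) m) :
    Integrable (fun x => b (Y t x)) m := by
  have h1 : Integrable b (m.map (Y t)) := by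
    have h2 : Measurable fun x => Real.toNNReal (ρ t x) := (ρ t).measurable.real_toNNReal
    have h3 : m.withDensity (fun x => ENNReal.ofReal (ρ t x))
        = m.withDensity (fun x => ((Real.toNNReal (ρ t x) : ℝ≥0) : ℝ≥0∞)) := rfl
    rw [Maps.map_eq h ht, h3, integrable_withDensity_iff_integrable_smul h2]
    refine hi.congr ?_
    filter_upwards [nonneg_iff_ae.1 h0] with x hx
    rw [NNReal.smul_def, Real.coe_toNNReal _ hx, smul_eq_mul]
  exact h1.comp_measurable (h.meas t ht)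

/-- the density is positive at the image points -/
theorem Maps.pos (h : Maps ρ R Y) (ht : t ∈ Ioc (0 : ℝ) 1) : ∀ᵐ x ∂m, 0 < ρ t (Y t x) := by
  have hm : MeasurableSet {y : M | ρ t y ≤ 0} := measurableSet_le (ρ t).measurable measurable_const
  have h1 := h.map t ht _ hm
  have h2 : ∫⁻ x in {y : M | ρ t y ≤ 0}, ENNReal.ofReal (ρ t x) ∂m = 0 := by
    rw [setLIntegral_congr_fun hm (g := fun _ => 0)]
    · simp
    · intro x hx
      exact ENNReal.ofReal_eq_zero.2 hx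
  rw [h2] at h1
  rw [measure_eq_zero_iff_ae_notMem] at h1
  filter_upwards [h1] with x hx
  simpa using hx

/-- only the values a.e. matter -/
theorem Maps.congr {Y' : ℝ → M → M} (h : Maps ρ R Y)
    (hm : ∀ t ∈ Ioc (0 : ℝ) 1, Measurable (Y' t)) (h1 : ∀ x, Y' 1 x = x)
    (he : ∀ t ∈ Ioc (0 : ℝ) 1, ∀ᵐ x ∂m, Y' t x = Y t x) : Maps ρ R Y' where
  meas := hm
  one := h1
  map t ht A hA := by
    rw [← h.map t ht A hA]
    refine measure_congr ?_
    filter_upwards [he t ht] with x hx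
    exact propext (by
      show Y' t x ∈ A ↔ Y t x ∈ A
      rw [hx])
  repr t ht k hk := by
    filter_upwards [he t ht, h.repr t ht k hk] with x a1 a2
    rw [a2, a1]
  comp t ht r hr k hk := by
    filter_upwards [he t ht, he r hr, h.comp t ht r hr k hk] with x a1 a2 a3
    rw [a1, a2, a3]

variable {K N : ℝ} {p : M} {s₀ C₀ : ℝ} {φ : ℝ → M →ₘ[m] ℝ}

theorem ρ_top (hL : Lim m K N p s₀ C₀ φ ρ R) (ht : t ∈ Ioc (0 : ℝ) 1) : MemLp (ρ t) ∞ m := by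
  rw [mem_top_iff]
  refine ⟨cK K C₀ * t ^ (-N), ?_⟩
  filter_upwards [hL.ρ_le t ht, nonneg_iff_ae.1 (hL.ρ_nonneg t ht)] with x a1 a2
  rwa [abs_of_nonneg a2]

/-- `∫ k(x) f(Y_t x) dm = ∫ f R_(t,1) k dm` -/
theorem pair (hL : Lim m K N p s₀ C₀ φ ρ R) (hM : Maps ρ R Y) (ht : t ∈ Ioc (0 : ℝ) 1)
    {k f : M →ₘ[m] ℝ} (hk : L2i m k) (hf : MemLp f 2 m) :
    Integrable (fun x => k x * f (Y t x)) m ∧ ∫ x, k x * f (Y t x) ∂m = I (f * R t 1 k) := by
  have hρ0 := hL.ρ_nonneg t ht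
  have hR := hL.R_mem t ht 1 one_mem k hk
  obtain ⟨B, hB⟩ := mem_top_iff.1 hk.2
  have hRle := hL.R_le t ht 1 one_mem k hk B hB
  set w : M → ℝ := fun y => R t 1 k y / ρ t y with hw
  have hwm : Measurable w := (R t 1 k).measurable.div (ρ t).measurable
  have hbm : AEStronglyMeasurable (fun y => f y * w y) m :=
    (f.measurable.mul hwm).aestronglyMeasurable
  have e1 : ∀ᵐ x ∂m, k x * f (Y t x) = f (Y t x) * w (Y t x) := by
    filter_upwards [hM.comp t ht 1 one_mem k hk, Maps.pos hM ht] with x a1 a2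
    simp only [hw]
    rw [a1, hM.one, mul_div_cancel_left₀ _ a2.ne', mul_comm]
  have e2 : ∀ᵐ y ∂m, ρ t y * (f y * w y) = (f * R t 1 k : M →ₘ[m] ℝ) y := by
    filter_upwards [hRle, mul_ae f (R t 1 k)] with y a1 a2
    rw [a2]
    simp only [hw]
    by_cases h0 : ρ t y = 0
    · rw [h0] at a1 ⊢
      have : R t 1 k y = 0 := by
        have : |R t 1 k y| ≤ 0 := by simpa using a1
        exact abs_eq_zero.1 (le_antisymm this (abs_nonneg _))
      rw [this]; simp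
    · field_simp
  have hint : Integrable (fun y => ρ t y * (f y * w y)) m :=
    (int_of_mem (mem_mul_22 hf hR.1)).congr (e2.mono fun y hy => hy.symm)
  refine ⟨(Maps.integrable hM ht hρ0 hbm hint).congr (e1.mono fun y hy => hy.symm), ?_⟩
  rw [integral_congr_ae e1, Maps.int hM ht hρ0 hbm, integral_congr_ae e2]
  rfl

end maps

/-! ### the velocity -/

section vel

variable {M : Type u} [MetricSpace M]

/-- the radius of the moving ball at time `τ` -/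
noncomputable def rr (s₀ C₀ τ : ℝ) : ℝ := √(2 * C₀ * (τ + s₀))

/-- the speed at the point `y` at time `τ` -/
noncomputable def vel (p : M) (s₀ C₀ τ : ℝ) (y : M) : ℝ :=
  if dist p y < rr s₀ C₀ τ then dist p y / (τ + s₀) else 0

variable {p : M} {s₀ C₀ τ : ℝ}

theorem rr_one : rr s₀ C₀ 1 = r1 s₀ C₀ := rfl

theorem rr_nonneg : 0 ≤ rr s₀ C₀ τ := Real.sqrt_nonneg _

theorem rr_sq (hs : 0 < s₀) (hC : 0 < C₀) (hτ : 0 ≤ τ) : rr s₀ C₀ τ ^ 2 = 2 * C₀ * (τ + s₀) :=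
  Real.sq_sqrt (by positivity)

theorem rr_pos (hs : 0 < s₀) (hC : 0 < C₀) (hτ : 0 ≤ τ) : 0 < rr s₀ C₀ τ :=
  Real.sqrt_pos.2 (by positivity)

theorem rr_mono (hC : 0 < C₀) {τ τ' : ℝ} (h : τ ≤ τ') : rr s₀ C₀ τ ≤ rr s₀ C₀ τ' := by
  unfold rr
  gcongr

theorem rr_le_r1 (hC : 0 < C₀) (hτ : τ ≤ 1) : rr s₀ C₀ τ ≤ r1 s₀ C₀ := rr_mono hC hτ

theorem rr_lt (hs : 0 < s₀) (hC : 0 < C₀) {τ τ' : ℝ} (h0 : 0 ≤ τ) (h : τ < τ') :
    rr s₀ C₀ τ < rr s₀ C₀ τ' := by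
  unfold rr
  refine Real.sqrt_lt_sqrt (by positivity) ?_
  gcongr

theorem vel_nonneg (hs : 0 < s₀) (hτ : 0 ≤ τ) (y : M) : 0 ≤ vel p s₀ C₀ τ y := by
  unfold vel
  split_ifs with h
  · positivity
  · exact le_rfl

theorem vel_le (hs : 0 < s₀) (hC : 0 < C₀) (h0 : 0 ≤ τ) (h1 : τ ≤ 1) (y : M) :
    vel p s₀ C₀ τ y ≤ r1 s₀ C₀ / s₀ := by
  have h2 : (0 : ℝ) ≤ r1 s₀ C₀ := Real.sqrt_nonneg _
  unfold vel
  split_ifs with h
  · have h3 : dist p y ≤ r1 s₀ C₀ := h.le.trans (rr_le_r1 hC h1)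
    exact div_le_div₀ h2 h3 hs (by linarith)
  · positivity

theorem vel_off (y : M) (h : rr s₀ C₀ τ ≤ dist p y) : vel p s₀ C₀ τ y = 0 := by
  unfold vel
  rw [if_neg (not_lt.2 h)]

theorem continuous_rr : Continuous (rr s₀ C₀) := by
  unfold rr
  fun_prop

variable [MeasurableSpace M] [BorelSpace M]

theorem measurable_vel (p : M) (s₀ C₀ : ℝ) :
    Measurable fun z : ℝ × M => vel p s₀ C₀ z.1 z.2 := by
  have h1 : Measurable fun z : ℝ × M => dist p z.2 :=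
    (continuous_const.dist continuous_id).measurable.comp measurable_snd
  refine Measurable.ite ?_ ?_ measurable_const
  · exact measurableSet_lt h1 (continuous_rr.measurable.comp measurable_fst)
  · exact h1.div (measurable_fst.add_const s₀)

end vel

/-! ### the continuity equation along the maps -/

section ce

variable {M : Type u} [MetricSpace M] [CompleteSpace M] [SecondCountableTopology M]
  [MeasurableSpace M] [BorelSpace M] {m : Measure M}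
variable {ρ : ℝ → M →ₘ[m] ℝ} {R : ℝ → ℝ → (M →ₘ[m] ℝ) → (M →ₘ[m] ℝ)} {Y : ℝ → M → M} {t : ℝ}
variable {K N : ℝ} {p : M} {s₀ C₀ : ℝ} {φ : ℝ → M →ₘ[m] ℝ}
variable {P : ℝ → (M →ₘ[m] ℝ) → (M →ₘ[m] ℝ)}

theorem std_gamma (h : Std m K N) : IsGamma (sob m) :=
  isGamma_sob h.hfin h.rcd.quadratic h.rcd.sobolev_to_lipschitz

theorem std_dir (h : Std m K N) : IsDir (sob m) := (std_gamma h).toIsDir

theorem dc_mem (h : Std m K N) : dc m p s₀ C₀ ∈ (sob m).W := H183.dtr_mem h.hfin p _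

/-- the static formula: `⟨∇b,∇z_τ⟩ = vel ⟨∇b,∇d_p⟩` -/
theorem Γ_zc (h : Std m K N) (hs : 0 < s₀) (hC0 : 0 < C₀) {τ : ℝ} (h0 : 0 ≤ τ) (h1 : τ ≤ 1)
    {b : M →ₘ[m] ℝ} (hb : b ∈ (sob m).W) : ∀ᵐ y ∂m, (sob m).Γ b (zc m p s₀ C₀ τ) y
      = vel p s₀ C₀ τ y * (sob m).Γ b (dc m p s₀ C₀) y := by
  have hC := std_dir h
  have hz : zc m p s₀ C₀ τ ∈ (sob m).W :=
    (H183.zr_mem_A hC h.hfin (by linarith) rr_nonneg (rr_sq hs hC0 h0)).1
  rw [hC.symm _ hb _ hz, hC.symm _ hb _ (dc_mem h)]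
  filter_upwards [H183.Γ_zr hC h.hfin (p := p) (by linarith : 0 < τ + s₀) rr_nonneg
      (rr_sq hs hC0 h0) hb, H183.Γ_dtr_radius hC h.hfin p (rr s₀ C₀ τ) (r1 s₀ C₀) hb,
    H183.Γ_dtr_zero hC h.hfin p (rr s₀ C₀ τ) hb] with y a1 a2 a3
  show (sob m).Γ (cl m (zr p s₀ C₀ τ)) b y = _ * (sob m).Γ (cl m (dtr p (r1 s₀ C₀))) b y
  rw [a1]
  by_cases hy : dist p y < rr s₀ C₀ τ
  · rw [a2 hy (hy.trans_le (rr_le_r1 hC0 h1)), vel, if_pos hy, min_eq_left hy.le]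
  · rw [a3 (not_lt.1 hy), vel_off y (not_lt.1 hy)]
    ring

/-- `|∇dc| ≤ 1` -/
theorem Γ_dc_le (h : Std m K N) :
    ∀ᵐ y ∂m, (sob m).Γ (dc m p s₀ C₀) (dc m p s₀ C₀) y ≤ 1 := by
  have := H183.Γ_cl_le h.hfin (H183.dtr_lip p (r1 s₀ C₀)) (x₀ := p) (R := r1 s₀ C₀)
    (fun _ h => H183.dtr_zero h)
  simpa [dc] using this

theorem mem_top_of_le (hC : IsDir (sob m)) {f : M →ₘ[m] ℝ} (hf : f ∈ (sob m).W) {L : ℝ}
    (h : ∀ᵐ x ∂m, (sob m).Γ f f x ≤ L) : MemLp ((sob m).Γ f f) ∞ m := by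
  rw [mem_top_iff]
  refine ⟨L, ?_⟩
  filter_upwards [h, hC.Γ_nonneg_ae hf] with x a1 a2
  rwa [abs_of_nonneg a2]

theorem Γ_b_dc_mem (h : Std m K N) {b : M →ₘ[m] ℝ} (hb : b ∈ (sob m).W) :
    MemLp ((sob m).Γ b (dc m p s₀ C₀)) 2 m := by
  have hC := std_dir h
  rw [hC.symm _ hb _ (dc_mem h)]
  exact hC.Γ_mem2 (dc_mem h) (mem_top_of_le hC (dc_mem h) (Γ_dc_le h)) hb

theorem Γ_b_dc_le (h : Std m K N) {b : M →ₘ[m] ℝ} (hb : b ∈ (sob m).W) {L : ℝ} (hL : 0 ≤ L)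
    (hbL : ∀ᵐ x ∂m, (sob m).Γ b b x ≤ L ^ 2) :
    ∀ᵐ x ∂m, |(sob m).Γ b (dc m p s₀ C₀) x| ≤ L := by
  have hC := std_dir h
  filter_upwards [hC.Γ_cs_ae hb (dc_mem (p := p) (s₀ := s₀) (C₀ := C₀) h), hbL,
    Γ_dc_le (p := p) (s₀ := s₀) (C₀ := C₀) h, hC.Γ_nonneg_ae hb,
    hC.Γ_nonneg_ae (dc_mem (p := p) (s₀ := s₀) (C₀ := C₀) h)] with x a1 a2 a3 a4 a5
  refine abs_le_of_sq_le_sq (a1.trans ?_) hL
  calc _ ≤ L ^ 2 * 1 := mul_le_mul a2 a3 a5 (by positivity)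
    _ = L ^ 2 := mul_one _

theorem zc_mem2 (h : Std m K N) (hL : Lim m K N p s₀ C₀ φ ρ R) {τ : ℝ} (hτ : τ ∈ Icc (0 : ℝ) 1)
    {b : M →ₘ[m] ℝ} (hb : b ∈ (sob m).W) : MemLp ((sob m).Γ b (zc m p s₀ C₀ τ)) 2 m := by
  have hC := std_dir h
  obtain ⟨L, hLL⟩ := hL.z_grad
  rw [hC.symm _ hb _ (hL.z_mem τ hτ).1]
  exact hC.Γ_mem2 (hL.z_mem τ hτ).1 (mem_top_of_le hC (hL.z_mem τ hτ).1 (hLL τ hτ)) hb

/-- the integrand -/
noncomputable def gg (m : Measure M) (p : M) (s₀ C₀ : ℝ) (b : M →ₘ[m] ℝ) (Y : ℝ → M → M)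
    (τ : ℝ) (x : M) : ℝ := vel p s₀ C₀ τ (Y τ x) * (sob m).Γ b (dc m p s₀ C₀) (Y τ x)

/-- the integrated continuity equation -/
theorem ce_set (h : Std m K N) (hs : 0 < s₀) (hC0 : 0 < C₀) (hL : Lim m K N p s₀ C₀ φ ρ R)
    (hM : Maps ρ R Y) {b : M →ₘ[m] ℝ} (hb : b ∈ (sob m).W) {A : Set M} (hA : MeasurableSet A)
    (hAf : m A ≠ ∞) {s t : ℝ} (hs' : s ∈ Ioc (0 : ℝ) 1) (ht : t ∈ Ioc (0 : ℝ) 1) :
    ∫ x in A, b (Y t x) ∂m - ∫ x in A, b (Y s x) ∂m
      = ∫ τ in s..t, ∫ x in A, gg m p s₀ C₀ b Y τ x ∂m := by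
  have hC := std_dir h
  set k : M →ₘ[m] ℝ := indc m A hA with hk
  have hkL : L2i m k := ⟨indc_mem m hA hAf 2, indc_mem m hA hAf ∞⟩
  have hkae : ∀ f : M → ℝ, ∫ x, k x * f x ∂m = ∫ x in A, f x ∂m := by
    intro f
    rw [← integral_indicator hA]
    refine integral_congr_ae ?_
    filter_upwards [indc_ae m A hA] with x hx
    rw [hk, hx]
    by_cases hxA : x ∈ A <;> simp [hxA]
  have hb2 := hC.memLp b hb
  have e1 := (hL.CE 1 one_mem k hkL b hb s hs' t ht).2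
  have e2 : I (b * (R t 1 k - R s 1 k)) = I (b * R t 1 k) - I (b * R s 1 k) := by
    rw [mul_sub, I_sub (mem_mul_22 hb2 (hL.R_mem t ht 1 one_mem k hkL).1)
      (mem_mul_22 hb2 (hL.R_mem s hs' 1 one_mem k hkL).1)]
  rw [e2, ← (pair hL hM ht hkL hb2).2, ← (pair hL hM hs' hkL hb2).2, hkae, hkae] at e1
  rw [e1]
  refine intervalIntegral.integral_congr fun τ hτ => ?_
  have hτ' : τ ∈ Ioc (0 : ℝ) 1 := by
    rw [mem_uIcc] at hτ
    rcases hτ with h | h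
    · exact ⟨hs'.1.trans_le h.1, h.2.trans ht.2⟩
    · exact ⟨ht.1.trans_le h.1, h.2.trans hs'.2⟩
  have hτ'' : τ ∈ Icc (0 : ℝ) 1 := ⟨hτ'.1.le, hτ'.2⟩
  rw [← (pair hL hM hτ' hkL (zc_mem2 h hL hτ'' hb)).2, hkae]
  refine integral_congr_ae (ae_restrict_of_ae ?_)
  filter_upwards [Maps.ae hM hτ' (Γ_zc (p := p) h hs hC0 hτ''.1 hτ''.2 hb)] with x hx
  rw [hx]; rfl

theorem intOn (hL : Lim m K N p s₀ C₀ φ ρ R) (hM : Maps ρ R Y) (ht : t ∈ Ioc (0 : ℝ) 1)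
    {f : M →ₘ[m] ℝ} (hf : MemLp f 2 m) {A : Set M} (hA : MeasurableSet A) (hAf : m A ≠ ∞) :
    IntegrableOn (fun x => f (Y t x)) A m := by
  have h1 := (pair hL hM ht (k := indc m A hA)
    ⟨indc_mem m hA hAf 2, indc_mem m hA hAf ∞⟩ hf).1
  rw [← integrable_indicator_iff hA]
  refine h1.congr ?_
  filter_upwards [indc_ae m A hA] with x hx
  rw [hx]
  by_cases hxA : x ∈ A <;> simp [hxA]

theorem sigmaFinite_std (h : Std m K N) (p : M) : SigmaFinite m :=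
  ⟨⟨{ set := fun n : ℕ => Metric.ball p n
      set_mem := fun _ => trivial
      finite := fun n => h.hfin p n
      spanning := by
        rw [eq_univ_iff_forall]
        intro x
        obtain ⟨n, hn⟩ := exists_nat_gt (dist x p)
        exact mem_iUnion.mpr ⟨n, Metric.mem_ball.mpr hn⟩ }⟩⟩

theorem ae_le_of_sets [SigmaFinite m] {F G : M → ℝ}
    (hF : ∀ A, MeasurableSet A → m A < ∞ → IntegrableOn F A m)
    (hG : ∀ A, MeasurableSet A → m A < ∞ → IntegrableOn G A m)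
    (hFG : ∀ A, MeasurableSet A → m A < ∞ → ∫ x in A, F x ∂m ≤ ∫ x in A, G x ∂m) :
    ∀ᵐ x ∂m, F x ≤ G x := by
  have := ae_nonneg_of_forall_setIntegral_nonneg_of_sigmaFinite (μ := m) (f := fun x => G x - F x)
    (fun A hA hAf => (hG A hA hAf).sub (hF A hA hAf)) (fun A hA hAf => by
      rw [integral_sub (hG A hA hAf) (hF A hA hAf)]
      linarith [hFG A hA hAf])
  filter_upwards [this] with x hx
  simpa using hx

theorem ae_eq_of_sets [SigmaFinite m] {F G : M → ℝ}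
    (hF : ∀ A, MeasurableSet A → m A < ∞ → IntegrableOn F A m)
    (hG : ∀ A, MeasurableSet A → m A < ∞ → IntegrableOn G A m)
    (hFG : ∀ A, MeasurableSet A → m A < ∞ → ∫ x in A, F x ∂m = ∫ x in A, G x ∂m) :
    ∀ᵐ x ∂m, F x = G x := by
  filter_upwards [ae_le_of_sets hF hG fun A hA hAf => (hFG A hA hAf).le,
    ae_le_of_sets hG hF fun A hA hAf => (hFG A hA hAf).ge] with x a1 a2
  exact le_antisymm a1 a2

/-- functions with `|∇b| ≤ 1` are Lipschitz along the maps -/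
theorem lip_pair (h : Std m K N) (hs : 0 < s₀) (hC0 : 0 < C₀) (hL : Lim m K N p s₀ C₀ φ ρ R)
    (hM : Maps ρ R Y) {b : M →ₘ[m] ℝ} (hb : b ∈ (sob m).W)
    (hb1 : ∀ᵐ x ∂m, (sob m).Γ b b x ≤ 1) {s t : ℝ} (hs' : s ∈ Ioc (0 : ℝ) 1)
    (ht : t ∈ Ioc (0 : ℝ) 1) :
    ∀ᵐ x ∂m, b (Y t x) - b (Y s x) ≤ r1 s₀ C₀ / s₀ * |t - s| := by
  haveI := sigmaFinite_std h p
  have hC := std_dir h
  have hb2 := hC.memLp b hb
  refine ae_le_of_sets
    (fun A hA hAf => (intOn hL hM ht hb2 hA hAf.ne).sub (intOn hL hM hs' hb2 hA hAf.ne))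
    (fun A hA hAf => integrableOn_const hAf.ne) fun A hA hAf => ?_
  rw [integral_sub (intOn hL hM ht hb2 hA hAf.ne) (intOn hL hM hs' hb2 hA hAf.ne),
    ce_set h hs hC0 hL hM hb hA hAf.ne hs' ht, setIntegral_const, smul_eq_mul]
  have h1 : ∀ τ ∈ Set.uIoc s t, ‖∫ x in A, gg m p s₀ C₀ b Y τ x ∂m‖
      ≤ r1 s₀ C₀ / s₀ * m.real A := by
    intro τ hτ
    have hτ' : τ ∈ Ioc (0 : ℝ) 1 := by
      rw [mem_uIoc] at hτ
      rcases hτ with h | h
      · exact ⟨hs'.1.trans h.1, h.2.trans ht.2⟩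
      · exact ⟨ht.1.trans h.1, h.2.trans hs'.2⟩
    refine norm_setIntegral_le_of_norm_le_const_ae hAf (ae_restrict_of_ae ?_)
    filter_upwards [Maps.ae hM hτ' (Γ_b_dc_le (p := p) (s₀ := s₀) (C₀ := C₀) h hb zero_le_one
      (by simpa using hb1))] with x hx
    have h2 := vel_le (p := p) hs hC0 hτ'.1.le hτ'.2 (Y τ x)
    have h3 := vel_nonneg (p := p) (C₀ := C₀) hs hτ'.1.le (Y τ x)
    rw [gg, Real.norm_eq_abs, abs_mul, abs_of_nonneg h3]
    calc _ ≤ r1 s₀ C₀ / s₀ * 1 := mul_le_mul h2 hx (abs_nonneg _) (h3.trans h2)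
      _ = _ := mul_one _
  have h2 := intervalIntegral.norm_integral_le_of_norm_le_const h1
  rw [Real.norm_eq_abs] at h2
  calc _ ≤ _ := le_abs_self _
    _ ≤ _ := h2
    _ = _ := by ring

theorem dist_le_of_dtr {a b : M} {c : ℝ} [Nonempty M]
    (h : ∀ n R : ℕ, dtr (denseSeq M n) R a - dtr (denseSeq M n) R b ≤ c) : dist a b ≤ c := by
  refine le_of_forall_pos_le_add fun ε hε => ?_
  obtain ⟨n, hn⟩ := (denseRange_denseSeq M).exists_dist_lt b (half_pos hε)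
  obtain ⟨R, hR⟩ := exists_nat_ge (max (dist (denseSeq M n) a) (dist (denseSeq M n) b))
  have h1 := h n R
  rw [H183.dtr_eq ((le_max_left _ _).trans hR), H183.dtr_eq ((le_max_right _ _).trans hR)] at h1
  have h2 := dist_triangle a (denseSeq M n) b
  rw [dist_comm a (denseSeq M n)] at h2
  rw [dist_comm] at hn
  linarith

theorem dist_pair (h : Std m K N) (hs : 0 < s₀) (hC0 : 0 < C₀) (hL : Lim m K N p s₀ C₀ φ ρ R)
    (hM : Maps ρ R Y) {s t : ℝ} (hs' : s ∈ Ioc (0 : ℝ) 1) (ht : t ∈ Ioc (0 : ℝ) 1) :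
    ∀ᵐ x ∂m, dist (Y s x) (Y t x) ≤ r1 s₀ C₀ / s₀ * |s - t| := by
  haveI : Nonempty M := ⟨p⟩
  have h1 : ∀ᵐ x ∂m, ∀ n R : ℕ, dtr (denseSeq M n) R (Y s x) - dtr (denseSeq M n) R (Y t x)
      ≤ r1 s₀ C₀ / s₀ * |s - t| := by
    rw [ae_all_iff]; intro n
    rw [ae_all_iff]; intro R'
    have h2 := H183.Γ_cl_le h.hfin (H183.dtr_lip (denseSeq M n) (R' : ℝ)) (x₀ := denseSeq M n)
      (R := R') (fun _ h => H183.dtr_zero h)
    filter_upwards [lip_pair h hs hC0 hL hM (H183.dtr_mem h.hfin (denseSeq M n) (R' : ℝ))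
        (by simpa using h2) ht hs',
      Maps.ae hM hs' (H183.dtr_ae (m := m) (denseSeq M n) (R' : ℝ)),
      Maps.ae hM ht (H183.dtr_ae (m := m) (denseSeq M n) (R' : ℝ))] with x a1 a2 a3
    rw [← a2, ← a3]
    exact a1
  filter_upwards [h1] with x hx
  exact dist_le_of_dtr hx

theorem exists_good {q : M → Prop} (hq : ∀ᵐ x ∂m, q x) :
    ∃ G : Set M, MeasurableSet G ∧ (∀ᵐ x ∂m, x ∈ G) ∧ ∀ x ∈ G, q x := by
  obtain ⟨N, hN1, hN2, hN3⟩ := exists_measurable_superset_of_null (show m {x | ¬q x} = 0 from hq)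
  refine ⟨Nᶜ, hN2.compl, ?_, fun x hx => by_contra fun hcon => hx (hN1 hcon)⟩
  rw [ae_iff]
  simpa using hN3

/-- the Lipschitz version of the maps -/
theorem exists_Y1 (h : Std m K N) (hs : 0 < s₀) (hC0 : 0 < C₀) (hL : Lim m K N p s₀ C₀ φ ρ R)
    {Y₀ : ℝ → M → M} (hM : Maps ρ R Y₀) :
    ∃ Y : ℝ → M → M, (Measurable fun z : ℝ × M => Y z.1 z.2) ∧ Maps ρ R Y ∧
      ∃ V : ℝ, ∀ x s t, dist (Y s x) (Y t x) ≤ V * |s - t| := by
  classical
  haveI : Nonempty M := ⟨p⟩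
  set V : ℝ := r1 s₀ C₀ / s₀ with hV
  have hV0 : 0 ≤ V := by
    have : (0 : ℝ) ≤ r1 s₀ C₀ := Real.sqrt_nonneg _
    positivity
  set Z : ℝ → M → M := fun t x => if t ≤ 1 then Y₀ t x else x with hZ
  have hZ1 : ∀ t ≤ (1 : ℝ), Z t = Y₀ t := fun t ht => by funext x; simp [hZ, ht]
  have hZ2 : ∀ t, 1 < t → Z t = id := fun t ht => by funext x; simp [hZ, not_le.2 ht]
  have hZm : ∀ t ∈ Ioo (0 : ℝ) 2, AEMeasurable (Z t) m := by
    intro t ht
    rcases le_or_gt t 1 with h1 | h1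
    · rw [hZ1 t h1]; exact (hM.meas t ⟨ht.1, h1⟩).aemeasurable
    · rw [hZ2 t h1]; exact aemeasurable_id
  have hle : ∀ s ∈ Ioo (0 : ℝ) 2, ∀ t ∈ Ioo (0 : ℝ) 2, s ≤ t →
      ∀ᵐ y ∂m, dist (Z s y) (Z t y) ≤ V * |s - t| := by
    intro s hs1 t ht1 hst
    rcases le_or_gt t 1 with h1 | h1
    · rw [hZ1 t h1, hZ1 s (hst.trans h1)]
      exact dist_pair h hs hC0 hL hM ⟨hs1.1, hst.trans h1⟩ ⟨ht1.1, h1⟩
    · rcases le_or_gt s 1 with h2 | h2
      · rw [hZ2 t h1, hZ1 s h2]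
        filter_upwards [dist_pair h hs hC0 hL hM ⟨hs1.1, h2⟩ one_mem] with x hx
        rw [hM.one] at hx
        refine hx.trans (mul_le_mul_of_nonneg_left ?_ hV0)
        rw [abs_of_nonpos (by linarith), abs_of_nonpos (by linarith)]
        linarith
      · rw [hZ2 t h1, hZ2 s h2]
        refine Eventually.of_forall fun y => ?_
        rw [dist_self]; positivity
  have hle' : ∀ s ∈ Ioo (0 : ℝ) 2, ∀ t ∈ Ioo (0 : ℝ) 2,
      ∀ᵐ y ∂m, dist (Z s y) (Z t y) ≤ (fun _ => V) y * |s - t| := by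
    intro s hs1 t ht1
    rcases le_total s t with hst | hst
    · exact hle s hs1 t ht1 hst
    · filter_upwards [hle t ht1 s hs1 hst] with x hx
      rw [dist_comm, abs_sub_comm]; exact hx
  obtain ⟨X, hXm, hXZ, hXl⟩ := H416.exists_lipMod (μ := m) (by norm_num : (0 : ℝ) < 2) hZm hle'
  have h12 : (1 : ℝ) ∈ Ioo (0 : ℝ) 2 := ⟨by norm_num, by norm_num⟩
  have hX1 : ∀ᵐ x ∂m, X 1 x = x := by
    filter_upwards [hXZ 1 h12] with x hx
    rw [hx, hZ1 1 le_rfl, hM.one]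
  obtain ⟨G, hGm, hGae, hG⟩ := exists_good (hXl.and hX1)
  -- approximations
  set c : ℕ → ℝ → ℝ := fun n t => max (min t 1) (1 / ((n : ℝ) + 1)) with hc
  have hcI : ∀ n t, c n t ∈ Ioc (0 : ℝ) 1 := by
    intro n t
    have h1 : (0 : ℝ) < 1 / ((n : ℝ) + 1) := by positivity
    have h2 : 1 / ((n : ℝ) + 1) ≤ 1 := by
      rw [div_le_one (by positivity)]; linarith [n.cast_nonneg (α := ℝ)]
    exact ⟨h1.trans_le (le_max_right _ _), max_le (min_le_right _ _) h2⟩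
  have hcI2 : ∀ n t, c n t ∈ Ioo (0 : ℝ) 2 := fun n t =>
    ⟨(hcI n t).1, (hcI n t).2.trans_lt (by norm_num)⟩
  have hcl : ∀ n s t, |c n s - c n t| ≤ |s - t| := by
    intro n s t
    refine (abs_max_sub_max_le_max _ _ _ _).trans ?_
    refine max_le ((abs_min_sub_min_le_max _ _ _ _).trans ?_) (by simp)
    simp
  have hct : ∀ t, Tendsto (fun n => c n t) atTop (𝓝 (max (min t 1) 0)) := fun t =>
    tendsto_const_nhds.max tendsto_one_div_add_atTop_nhds_zero_nat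
  set F : ℕ → ℝ × M → M := fun n z => if z.2 ∈ G then X (c n z.1) z.2 else z.2 with hF
  have hFm : ∀ n, Measurable (F n) := by
    intro n
    refine Measurable.ite (hGm.preimage measurable_snd) ?_ measurable_snd
    have h1 : Measurable fun z : ℝ × M => (c n z.1, z.2) := by
      refine Measurable.prodMk ?_ measurable_snd
      exact ((measurable_fst.min measurable_const).max measurable_const)
    exact hXm.comp h1
  have hFlip : ∀ n s t x, dist (F n (s, x)) (F n (t, x)) ≤ V * |s - t| := by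
    intro n s t x
    simp only [hF]
    split_ifs with hx
    · exact ((hG x hx).1 _ (hcI2 n s) _ (hcI2 n t)).trans
        (mul_le_mul_of_nonneg_left (hcl n s t) hV0)
    · rw [dist_self]; positivity
  have hlim : ∀ z : ℝ × M, ∃ y, Tendsto (fun n => F n z) atTop (𝓝 y) := by
    intro z
    by_cases hz : z.2 ∈ G
    swap
    · exact ⟨z.2, by simp only [hF, if_neg hz]; exact tendsto_const_nhds⟩
    refine cauchySeq_tendsto_of_complete ?_
    have hcs : CauchySeq (fun n => V * c n z.1) := ((hct z.1).const_mul _).cauchySeq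
    rw [Metric.cauchySeq_iff] at hcs ⊢
    intro ε hε
    obtain ⟨n₀, hn₀⟩ := hcs ε hε
    refine ⟨n₀, fun i hi j hj => ?_⟩
    have h1 := hn₀ i hi j hj
    rw [Real.dist_eq, ← mul_sub, abs_mul, abs_of_nonneg hV0] at h1
    simp only [hF, if_pos hz]
    exact ((hG _ hz).1 _ (hcI2 i z.1) _ (hcI2 j z.1)).trans_lt h1
  choose Yf hYf using hlim
  have hYm : Measurable Yf := measurable_of_tendsto_metrizable hFm (tendsto_pi_nhds.2 hYf)
  have hYG : ∀ x, x ∉ G → ∀ t, Yf (t, x) = x := by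
    intro x hx t
    refine tendsto_nhds_unique (hYf (t, x)) ?_
    simp only [hF, if_neg hx]
    exact tendsto_const_nhds
  have hYX : ∀ x ∈ G, ∀ t ∈ Ioc (0 : ℝ) 1, Yf (t, x) = X t x := by
    intro x hx t ht
    refine tendsto_nhds_unique (hYf (t, x)) ?_
    simp only [hF, if_pos hx]
    have h1 : ∀ᶠ n in atTop, c n t = t := by
      have h2 := (tendsto_one_div_add_atTop_nhds_zero_nat (𝕜 := ℝ)).eventually_lt_const ht.1
      filter_upwards [h2] with n hn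
      simp only [hc]
      rw [min_eq_left ht.2, max_eq_left hn.le]
    refine tendsto_const_nhds.congr' (h1.mono fun n hn => ?_)
    show X t x = X (c n t) x
    rw [hn]
  refine ⟨fun t x => Yf (t, x), hYm, ?_, V, ?_⟩
  · refine Maps.congr hM (fun t _ => hYm.comp (measurable_const.prodMk measurable_id)) ?_ ?_
    · intro x
      by_cases hx : x ∈ G
      · rw [hYX x hx 1 one_mem, (hG x hx).2]
      · exact hYG x hx 1
    · intro t ht
      have ht2 : t ∈ Ioo (0 : ℝ) 2 := ⟨ht.1, ht.2.trans_lt (by norm_num)⟩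
      filter_upwards [hGae, hXZ t ht2] with x hx a1
      show Yf (t, x) = _
      rw [hYX x hx t ht, a1, hZ1 t ht.2]
  · intro x s t
    exact le_of_tendsto ((hYf (s, x)).dist (hYf (t, x))) (Eventually.of_forall fun n =>
      hFlip n s t x)

end ce

end Vale.Agent.P233.H134
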