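import Vale.Agent.P233.H134.C4a

/-! P233, block C4, part b: the continuity equation along almost every curve (helper134). -/

set_option linter.all false

open MeasureTheory Filter Topology Set
open scoped ENNReal NNReal InnerProductSpace

universe u

namespace Vale.Agent.P233.H134

open Vale.Agent.P233 Vale.Agent.P233.PC
open TopologicalSpace (denseSeq denseRange_denseSeq)

variable {M : Type u} [MetricSpace M] [CompleteSpace M] [SecondCountableTopology M]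
  [MeasurableSpace M] [BorelSpace M] {m : Measure M}
variable {ρ : ℝ → M →ₘ[m] ℝ} {R : ℝ → ℝ → (M →ₘ[m] ℝ) → (M →ₘ[m] ℝ)} {Y : ℝ → M → M} {t : ℝ}
variable {K N : ℝ} {p : M} {s₀ C₀ : ℝ} {φ : ℝ → M →ₘ[m] ℝ}

/-- null sets along almost every curve -/
theorem ae_flow (h : Std m K N) (hM : Maps ρ R Y) (hY : Measurable fun z : ℝ × M => Y z.1 z.2)
    (p : M) {q : M → Prop} (hq : ∀ᵐ y ∂m, q y) :
    ∀ᵐ x ∂m, ∀ᵐ τ ∂(volume.restrict (Ioc (0 : ℝ) 1)), q (Y τ x) := by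
  haveI := sigmaFinite_std h p
  obtain ⟨G, hGm, hGae, hG⟩ := exists_good hq
  have h1 : ∀ᵐ τ ∂(volume.restrict (Ioc (0 : ℝ) 1)), ∀ᵐ x ∂m, Y τ x ∈ G := by
    filter_upwards [ae_restrict_mem measurableSet_Ioc] with τ hτ
    exact Maps.ae hM hτ hGae
  have hm : MeasurableSet {z : ℝ × M | Y z.1 z.2 ∈ G} := hGm.preimage hY
  have h2 : ∀ᵐ x ∂m, ∀ᵐ τ ∂(volume.restrict (Ioc (0 : ℝ) 1)), Y τ x ∈ G :=
    (Measure.ae_ae_comm hm).1 h1
  filter_upwards [h2] with x hx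
  filter_upwards [hx] with τ hτ
  exact hG _ hτ

/-- statements about the flow at a.e. time -/
theorem ae_flow_of (h : Std m K N) (p : M) {q : ℝ → M → Prop}
    (hm : MeasurableSet {z : ℝ × M | q z.1 z.2})
    (hq : ∀ τ ∈ Ioc (0 : ℝ) 1, ∀ᵐ x ∂m, q τ x) :
    ∀ᵐ x ∂m, ∀ᵐ τ ∂(volume.restrict (Ioc (0 : ℝ) 1)), q τ x := by
  haveI := sigmaFinite_std h p
  refine (Measure.ae_ae_comm hm).1 ?_
  filter_upwards [ae_restrict_mem measurableSet_Ioc] with τ hτ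
  exact hq τ hτ

/-- second moments along the flow -/
theorem sq_flow (h : Std m K N) (hL : Lim m K N p s₀ C₀ φ ρ R) (hM : Maps ρ R Y)
    {f : M →ₘ[m] ℝ} (hf : MemLp f 2 m) {s : ℝ} (hs : 0 < s) {τ : ℝ} (hτ : τ ∈ Icc s 1) :
    Integrable (fun x => f (Y τ x) ^ 2) m ∧
      ∫ x, f (Y τ x) ^ 2 ∂m ≤ cK K C₀ * s ^ (-N) * I (f ^ 2) := by
  have hτ' : τ ∈ Ioc (0 : ℝ) 1 := ⟨hs.trans_le hτ.1, hτ.2⟩
  have hρ0 := hL.ρ_nonneg τ hτ'
  have hbm : AEStronglyMeasurable (fun y => f y ^ 2) m :=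
    (f.measurable.pow_const 2).aestronglyMeasurable
  have h1 : MemLp (ρ τ * f ^ 2 : M →ₘ[m] ℝ) 1 m := mem_mul_top (ρ_top hL hτ') (mem_sq hf)
  have e1 : ∀ᵐ y ∂m, (ρ τ * f ^ 2 : M →ₘ[m] ℝ) y = ρ τ y * f y ^ 2 := by
    filter_upwards [mul_ae (ρ τ) (f ^ 2), sq_ae f] with y a1 a2
    rw [a1, a2]
  have hint : Integrable (fun y => ρ τ y * f y ^ 2) m := (int_of_mem h1).congr e1
  refine ⟨Maps.integrable hM hτ' hρ0 hbm hint, ?_⟩
  rw [Maps.int hM hτ' hρ0 hbm]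
  have hf2 : Integrable (fun y => f y ^ 2) m :=
    (int_of_mem (mem_sq hf)).congr (sq_ae f)
  have hI : I (f ^ 2) = ∫ y, f y ^ 2 ∂m := integral_congr_ae (sq_ae f)
  rw [hI, ← integral_const_mul]
  refine integral_mono_ae hint (hf2.const_mul _) ?_
  filter_upwards [hL.ρ_le τ hτ'] with y a1
  have h2 : τ ^ (-N) ≤ s ^ (-N) :=
    Real.rpow_le_rpow_of_nonpos hs hτ.1 (by linarith [h.hN])
  have h3 : 0 < cK K C₀ := Real.exp_pos _
  exact mul_le_mul_of_nonneg_right (a1.trans (mul_le_mul_of_nonneg_left h2 h3.le)) (sq_nonneg _)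

/-- `f(Y_τ x)` is integrable on `(s,1) × A` -/
theorem flow_int (h : Std m K N) (hL : Lim m K N p s₀ C₀ φ ρ R) (hM : Maps ρ R Y)
    (hY : Measurable fun z : ℝ × M => Y z.1 z.2)
    {f : M →ₘ[m] ℝ} (hf : MemLp f 2 m) {s : ℝ} (hs : 0 < s) {A : Set M} (hA : MeasurableSet A)
    (hAf : m A < ∞) : Integrable (fun z : ℝ × M => f (Y z.1 z.2))
      ((volume.restrict (Ioc s 1)).prod (m.restrict A)) := by
  haveI : IsFiniteMeasure (m.restrict A) := ⟨by simpa using hAf⟩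
  have hm : Measurable fun z : ℝ × M => f (Y z.1 z.2) := f.measurable.comp hY
  rw [integrable_prod_iff hm.aestronglyMeasurable]
  constructor
  · filter_upwards [ae_restrict_mem measurableSet_Ioc] with τ hτ
    exact intOn hL hM ⟨hs.trans hτ.1, hτ.2⟩ hf hA hAf.ne
  · have h1 : AEStronglyMeasurable (fun τ => ∫ x, ‖f (Y τ x)‖ ∂(m.restrict A))
        (volume.restrict (Ioc s 1)) :=
      (hm.norm.stronglyMeasurable.integral_prod_right').aestronglyMeasurable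
    refine Integrable.of_bound h1 (m.real A + cK K C₀ * s ^ (-N) * I (f ^ 2)) ?_
    filter_upwards [ae_restrict_mem measurableSet_Ioc] with τ hτ
    have hτ' : τ ∈ Ioc (0 : ℝ) 1 := ⟨hs.trans hτ.1, hτ.2⟩
    obtain ⟨i1, i2⟩ := sq_flow h hL hM hf hs ⟨hτ.1.le, hτ.2⟩
    rw [Real.norm_of_nonneg (integral_nonneg fun _ => norm_nonneg _)]
    have e1 : ∫ x in A, ‖f (Y τ x)‖ ∂m ≤ ∫ x in A, (1 + f (Y τ x) ^ 2) ∂m := by
      refine setIntegral_mono (intOn hL hM hτ' hf hA hAf.ne).norm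
        ((integrableOn_const hAf.ne).add i1.integrableOn) fun x => ?_
      rw [Real.norm_eq_abs]
      have := sq_abs (f (Y τ x))
      nlinarith [abs_nonneg (f (Y τ x)), sq_nonneg (|f (Y τ x)| - 1)]
    have e2 : ∫ x in A, (1 + f (Y τ x) ^ 2) ∂m = m.real A + ∫ x in A, f (Y τ x) ^ 2 ∂m := by
      rw [integral_add (μ := m.restrict A) (integrable_const _) i1.integrableOn]
      simp
    have e3 : ∫ x in A, f (Y τ x) ^ 2 ∂m ≤ ∫ x, f (Y τ x) ^ 2 ∂m :=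
      setIntegral_le_integral i1 (Eventually.of_forall fun x => sq_nonneg _)
    linarith

/-- `f(Y_τ x)` is integrable along a.e. curve -/
theorem flow_intOn (h : Std m K N) (hL : Lim m K N p s₀ C₀ φ ρ R) (hM : Maps ρ R Y)
    (hY : Measurable fun z : ℝ × M => Y z.1 z.2)
    {f : M →ₘ[m] ℝ} (hf : MemLp f 2 m) {s : ℝ} (hs : 0 < s) :
    ∀ᵐ x ∂m, IntegrableOn (fun τ => f (Y τ x)) (Ioc s 1) := by
  haveI := sigmaFinite_std h p
  have h1 : ∀ n : ℕ, ∀ᵐ x ∂m, x ∈ Metric.ball p n → IntegrableOn (fun τ => f (Y τ x)) (Ioc s 1) := by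
    intro n
    rw [← ae_restrict_iff' measurableSet_ball]
    exact (flow_int h hL hM hY hf hs measurableSet_ball (h.hfin p n)).prod_left_ae
  filter_upwards [ae_all_iff.2 h1] with x hx
  obtain ⟨n, hn⟩ := exists_nat_gt (dist x p)
  exact hx n (Metric.mem_ball.2 hn)

theorem measurable_gg (hY : Measurable fun z : ℝ × M => Y z.1 z.2) (b : M →ₘ[m] ℝ) :
    Measurable fun z : ℝ × M => gg m p s₀ C₀ b Y z.1 z.2 := by
  have h1 : Measurable fun z : ℝ × M => (z.1, Y z.1 z.2) := measurable_fst.prodMk hY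
  exact ((measurable_vel p s₀ C₀).comp h1).mul
    (((sob m).Γ b (dc m p s₀ C₀)).measurable.comp hY)

theorem vel_bd (hs : 0 < s₀) (hC0 : 0 < C₀) {τ : ℝ} (h0 : 0 ≤ τ) (h1 : τ ≤ 1) (y : M) :
    |vel p s₀ C₀ τ y| ≤ r1 s₀ C₀ / s₀ := by
  rw [abs_of_nonneg (vel_nonneg hs h0 y)]
  exact vel_le hs hC0 h0 h1 y

theorem gg_int (h : Std m K N) (hs₀ : 0 < s₀) (hC0 : 0 < C₀) (hL : Lim m K N p s₀ C₀ φ ρ R)
    (hM : Maps ρ R Y) (hY : Measurable fun z : ℝ × M => Y z.1 z.2)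
    {b : M →ₘ[m] ℝ} (hb : b ∈ (sob m).W) {s : ℝ} (hs : 0 < s) {A : Set M} (hA : MeasurableSet A)
    (hAf : m A < ∞) : Integrable (fun z : ℝ × M => gg m p s₀ C₀ b Y z.1 z.2)
      ((volume.restrict (Ioc s 1)).prod (m.restrict A)) := by
  have h1 := (flow_int h hL hM hY (Γ_b_dc_mem (p := p) (s₀ := s₀) (C₀ := C₀) h hb) hs hA
    hAf).norm.const_mul (r1 s₀ C₀ / s₀)
  refine h1.mono' (measurable_gg hY b).aestronglyMeasurable ?_
  have h2 : ∀ᵐ z ∂((volume.restrict (Ioc s 1)).prod (m.restrict A)), z.1 ∈ Ioc s 1 := by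
    have := (Measure.quasiMeasurePreserving_fst (μ := volume.restrict (Ioc s 1))
      (ν := m.restrict A)).ae (ae_restrict_mem measurableSet_Ioc)
    exact this
  filter_upwards [h2] with z hz
  rw [gg, norm_mul, Real.norm_eq_abs]
  exact mul_le_mul_of_nonneg_right (vel_bd hs₀ hC0 (hs.le.trans hz.1.le) hz.2 _) (norm_nonneg _)

/-- THE FIRST DERIVATIVE along a.e. curve, fixed times -/
theorem der0 (h : Std m K N) (hs₀ : 0 < s₀) (hC0 : 0 < C₀) (hL : Lim m K N p s₀ C₀ φ ρ R)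
    (hM : Maps ρ R Y) (hY : Measurable fun z : ℝ × M => Y z.1 z.2)
    {b : M →ₘ[m] ℝ} (hb : b ∈ (sob m).W) {s t : ℝ} (hs : s ∈ Ioc (0 : ℝ) 1) (ht : t ∈ Icc s 1) :
    ∀ᵐ x ∂m, b (Y t x) - b (Y s x) = ∫ τ in s..t, gg m p s₀ C₀ b Y τ x := by
  haveI := sigmaFinite_std h p
  have hb2 := (std_dir h).memLp b hb
  have ht' : t ∈ Ioc (0 : ℝ) 1 := ⟨hs.1.trans_le ht.1, ht.2⟩
  have hgi : ∀ A, MeasurableSet A → m A < ∞ → Integrable
      (fun z : ℝ × M => gg m p s₀ C₀ b Y z.1 z.2)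
      ((volume.restrict (Ioc s t)).prod (m.restrict A)) := fun A hA hAf => by
    haveI : IsFiniteMeasure (m.restrict A) := ⟨by simpa using hAf⟩
    exact (gg_int h hs₀ hC0 hL hM hY hb hs.1 hA hAf).mono_measure
      (Measure.prod_mono (Measure.restrict_mono (Ioc_subset_Ioc_right ht.2) le_rfl) le_rfl)
  refine ae_eq_of_sets (F := fun x => b (Y t x) - b (Y s x))
    (G := fun x => ∫ τ in s..t, gg m p s₀ C₀ b Y τ x)
    (fun A hA hAf => (intOn hL hM ht' hb2 hA hAf.ne).sub (intOn hL hM hs hb2 hA hAf.ne))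
    (fun A hA hAf => ?_) fun A hA hAf => ?_
  · have := (hgi A hA hAf).integral_prod_right
    simp only [intervalIntegral.integral_of_le ht.1]
    exact this
  · rw [integral_sub (intOn hL hM ht' hb2 hA hAf.ne) (intOn hL hM hs hb2 hA hAf.ne),
      ce_set h hs₀ hC0 hL hM hb hA hAf.ne hs ht']
    simp only [intervalIntegral.integral_of_le ht.1]
    exact integral_integral_swap (f := fun τ x => gg m p s₀ C₀ b Y τ x) (hgi A hA hAf)

/-! ### all times -/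

theorem eq_all {f g : ℝ → ℝ} (hf : Continuous f) (hg : IntegrableOn g (Ioc 0 1))
    (h : ∀ q : ℚ, (q : ℝ) ∈ Ioo (0 : ℝ) 1 → f 1 - f q = ∫ τ in (q : ℝ)..1, g τ) :
    ∀ s ∈ Icc (0 : ℝ) 1, ∀ t ∈ Icc s 1,
      IntervalIntegrable g volume s t ∧ f t - f s = ∫ τ in s..t, g τ := by
  set g' : ℝ → ℝ := (Ioc (0 : ℝ) 1).indicator g with hg'
  have hg'i : Integrable g' := (integrable_indicator_iff measurableSet_Ioc).2 hg
  have hgg : ∀ s t, 0 ≤ s → s ≤ t → t ≤ 1 → ∫ τ in s..t, g' τ = ∫ τ in s..t, g τ := by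
    intro s t h0 h1 h2
    rw [intervalIntegral.integral_of_le h1, intervalIntegral.integral_of_le h1]
    refine setIntegral_congr_fun measurableSet_Ioc fun τ hτ => ?_
    have h3 : τ ∈ Ioc (0 : ℝ) 1 := ⟨h0.trans_lt hτ.1, hτ.2.trans h2⟩
    exact indicator_of_mem h3 g
  have hc : Continuous fun t => ∫ τ in t..(1 : ℝ), g' τ := by
    have h1 : Continuous fun t => ∫ τ in (1 : ℝ)..t, g' τ :=
      intervalIntegral.continuous_primitive (fun a b => hg'i.intervalIntegrable) 1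
    have h2 : (fun t => ∫ τ in t..(1 : ℝ), g' τ) = fun t => -∫ τ in (1 : ℝ)..t, g' τ := by
      funext t; rw [intervalIntegral.integral_symm]
    rw [h2]; exact h1.neg
  have hcl : IsClosed {t | f 1 - f t = ∫ τ in t..(1 : ℝ), g' τ} :=
    isClosed_eq (continuous_const.sub hf) hc
  have hall : ∀ t ∈ Icc (0 : ℝ) 1, f 1 - f t = ∫ τ in t..(1 : ℝ), g' τ := by
    have h1 : Ioo (0 : ℝ) 1 ⊆ {t | f 1 - f t = ∫ τ in t..(1 : ℝ), g' τ} := by
      have h2 := (Rat.denseRange_cast (𝕜 := ℝ)).open_subset_closure_inter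
        (isOpen_Ioo (a := (0 : ℝ)) (b := 1))
      refine h2.trans (closure_minimal ?_ hcl)
      rintro x ⟨hx, q, rfl⟩
      show f 1 - f q = _
      rw [hgg q 1 hx.1.le hx.2.le le_rfl]
      exact h q hx
    intro t ht
    have h3 := closure_minimal h1 hcl
    rw [closure_Ioo (by norm_num : (0 : ℝ) ≠ 1)] at h3
    exact h3 ht
  intro s hs t ht
  have ht0 : t ∈ Icc (0 : ℝ) 1 := ⟨hs.1.trans ht.1, ht.2⟩
  refine ⟨(intervalIntegrable_iff_integrableOn_Ioc_of_le ht.1).2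
    (hg.mono_set (Ioc_subset_Ioc hs.1 ht.2)), ?_⟩
  have e1 := hall s hs
  have e2 := hall t ht0
  have e3 : (∫ τ in s..t, g' τ) + ∫ τ in t..(1 : ℝ), g' τ = ∫ τ in s..(1 : ℝ), g' τ :=
    intervalIntegral.integral_add_adjacent_intervals hg'i.intervalIntegrable
      hg'i.intervalIntegrable
  rw [← hgg s t hs.1 ht.1 ht.2]
  linarith

/-- Lipschitz functions: all times at once -/
theorem derLip0 (h : Std m K N) (hs₀ : 0 < s₀) (hC0 : 0 < C₀) (hL : Lim m K N p s₀ C₀ φ ρ R)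
    (hM : Maps ρ R Y) (hY : Measurable fun z : ℝ × M => Y z.1 z.2) {V : ℝ}
    (hV : ∀ x s t, dist (Y s x) (Y t x) ≤ V * |s - t|)
    {b : M → ℝ} {L : ℝ≥0} (hbL : LipschitzWith L b) (hb : cl m b ∈ (sob m).W) :
    ∀ᵐ x ∂m, (∀ᵐ τ ∂(volume.restrict (Ioc (0 : ℝ) 1)),
        |(sob m).Γ (cl m b) (dc m p s₀ C₀) (Y τ x)| ≤ L) ∧
      ∀ s ∈ Icc (0 : ℝ) 1, ∀ t ∈ Icc s 1,
        IntervalIntegrable (fun τ => gg m p s₀ C₀ (cl m b) Y τ x) volume s t ∧
        b (Y t x) - b (Y s x) = ∫ τ in s..t, gg m p s₀ C₀ (cl m b) Y τ x := by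
  have hbc : ⇑(cl m b) =ᵐ[m] b := H183.cl_cont hbL.continuous
  have hΓ : ∀ᵐ x ∂m, (sob m).Γ (cl m b) (cl m b) x ≤ (L : ℝ) ^ 2 := by
    filter_upwards [le_iff_ae.1 (slope_le_of_lipschitz h.hfin hb hbc hbL), sob_Γ_self_ae hb,
      slope_ae hb, smul_ae (1 : M →ₘ[m] ℝ) (L : ℝ), one_ae (M := M) (m := m),
      (mem_sob_iff.1 hb).mslope_nonneg] with x a1 a2 a3 a4 a5 a6
    rw [a3, a4, a5, mul_one] at a1
    rw [a2]
    gcongr
  have h1 := ae_flow h hM hY p (Γ_b_dc_le (p := p) (s₀ := s₀) (C₀ := C₀) h hb L.coe_nonneg hΓ)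
  have h2 : ∀ᵐ x ∂m, ∀ q : ℚ, (q : ℝ) ∈ Ioo (0 : ℝ) 1 →
      b (Y 1 x) - b (Y q x) = ∫ τ in (q : ℝ)..1, gg m p s₀ C₀ (cl m b) Y τ x := by
    rw [ae_all_iff]; intro q
    by_cases hq : (q : ℝ) ∈ Ioo (0 : ℝ) 1
    swap
    · exact Eventually.of_forall fun x hx => absurd hx hq
    have hq' : (q : ℝ) ∈ Ioc (0 : ℝ) 1 := ⟨hq.1, hq.2.le⟩
    filter_upwards [der0 h hs₀ hC0 hL hM hY hb hq' (t := 1) ⟨hq.2.le, le_rfl⟩, Maps.ae hM hq' hbc,
      Maps.ae hM one_mem hbc] with x a1 a2 a3 _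
    rw [← a2, ← a3, a1]
  filter_upwards [h1, h2] with x a1 a2
  refine ⟨a1, ?_⟩
  have hYc : Continuous fun τ => Y τ x := by
    have h3 : ∀ s t, dist (Y s x) (Y t x) ≤ (Real.toNNReal V : ℝ) * dist s t := by
      intro s t
      rw [Real.dist_eq]
      exact (hV x s t).trans (mul_le_mul_of_nonneg_right (Real.le_coe_toNNReal V) (abs_nonneg _))
    exact (LipschitzWith.of_dist_le_mul h3).continuous
  have hgm : Measurable fun τ => gg m p s₀ C₀ (cl m b) Y τ x :=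
    (measurable_gg hY (cl m b)).comp measurable_prodMk_right
  refine eq_all (f := fun τ => b (Y τ x)) (hbL.continuous.comp hYc) ?_ a2
  refine Integrable.of_bound hgm.aestronglyMeasurable (r1 s₀ C₀ / s₀ * L) ?_
  filter_upwards [a1, ae_restrict_mem measurableSet_Ioc] with τ a3 a4
  rw [gg, norm_mul, Real.norm_eq_abs, Real.norm_eq_abs]
  have := vel_bd (p := p) hs₀ hC0 a4.1.le a4.2 (Y τ x)
  exact mul_le_mul this a3 (abs_nonneg _) ((abs_nonneg _).trans this)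

end Vale.Agent.P233.H134
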